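import Vale.Agent.P088.R2.H349.J.Spec
import Vale.Agent.P088.R2.H558.E1

/-!
# P088, systems on pairs: `LA` as a system, `IdA` as a pairing (rows T2P, T2B)
-/

open MeasureTheory Set
open scoped ContDiff Matrix

noncomputable section

namespace Vale.Agent.P088.R2.H808.J

open Vale.Agent.P088.LR Vale.Agent.P088.HY

variable {n N : ℕ}

/-! ### Finite sums -/

theorem rot3 {a b c : ℕ} (f : Fin a → Fin b → Fin c → ℝ) :
    ∑ i, ∑ j, ∑ k, f i j k = ∑ k, ∑ i, ∑ j, f i j k := by
  rw [Finset.sum_comm (s := Finset.univ (α := Fin c))]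
  exact Finset.sum_congr rfl fun i _ => Finset.sum_comm

theorem rot4 {a b c d : ℕ} (f : Fin a → Fin b → Fin c → Fin d → ℝ) :
    ∑ i, ∑ j, ∑ k, ∑ l, f i j k l = ∑ k, ∑ l, ∑ i, ∑ j, f i j k l := by
  rw [rot3 (fun i j k => ∑ l, f i j k l)]
  exact Finset.sum_congr rfl fun k _ => rot3 (fun i j l => f i j k l)

/-! ### Derivatives of real functions -/

theorem pd_add {f g : V n → ℝ} {x : V n} (hf : DifferentiableAt ℝ f x)
    (hg : DifferentiableAt ℝ g x) (i : Fin n) :
    pd i (fun y => f y + g y) x = pd i f x + pd i g x := by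
  unfold pd
  rw [show (fun y => f y + g y) = f + g from rfl, fderiv_add hf hg]
  rfl

theorem pd_mul {f g : V n → ℝ} {x : V n} (hf : DifferentiableAt ℝ f x)
    (hg : DifferentiableAt ℝ g x) (i : Fin n) :
    pd i (fun y => f y * g y) x = pd i f x * g x + f x * pd i g x := by
  unfold pd
  rw [show (fun y => f y * g y) = f * g from rfl, fderiv_mul hf hg]
  simp only [add_apply, smul_apply, smul_eq_mul]
  ring

theorem pd_sum {ι : Type*} (t : Finset ι) {F : ι → V n → ℝ} {x : V n}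
    (h : ∀ i ∈ t, DifferentiableAt ℝ (F i) x) (j : Fin n) :
    pd j (fun y => ∑ i ∈ t, F i y) x = ∑ i ∈ t, pd j (F i) x := by
  unfold pd
  rw [fderiv_fun_sum h]
  simp

theorem dA {f : V n → ℝ} (hf : ContDiff ℝ ∞ f) (x : V n) : DifferentiableAt ℝ f x :=
  (hf.differentiable (by simp)).differentiableAt

theorem sm_pd {f : V n → ℝ} (hf : ContDiff ℝ ∞ f) (i : Fin n) : ContDiff ℝ ∞ (pd i f) := by
  have h := hf.fderiv_right (m := ∞) (by simp)
  exact h.clm_apply contDiff_const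

/-! ### `LA` is a system -/

/-- The coefficients of `LA`. -/
def co (s : MF n) (A : Cn' n N) (Q : Mx n N) : Co n N where
  b l x := Matrix.of fun p q => ∑ i, 2 * (s x l i * A i x p q)
  c x := Matrix.of fun p q => (∑ i, ∑ j, s x i j *
    (pd i (fun y => A j y p q) x + ∑ r, A i x p r * A j x r q)) - Q x p q

theorem sm_Dc {A : Cn' n N} (hA : ∀ l p q, ContDiff ℝ ∞ (fun x => A l x p q))
    {u : Fin N → V n → ℝ} (hu : ∀ p, ContDiff ℝ ∞ (u p)) (j : Fin n) (p : Fin N) :
    ContDiff ℝ ∞ (Dc A j u p) := by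
  unfold Dc
  exact (sm_pd (hu p) j).add (ContDiff.sum fun q _ => (hA j p q).mul (hu q))

theorem pd_Dc {A : Cn' n N} (hA : ∀ l p q, ContDiff ℝ ∞ (fun x => A l x p q))
    {u : Fin N → V n → ℝ} (hu : ∀ p, ContDiff ℝ ∞ (u p)) (i j : Fin n) (p : Fin N) (x : V n) :
    pd i (Dc A j u p) x = pd i (pd j (u p)) x +
      ∑ q, (pd i (fun y => A j y p q) x * u q x + A j x p q * pd i (u q) x) := by
  have e : Dc A j u p = fun y => pd j (u p) y + ∑ q, A j y p q * u q y := rfl
  rw [e, pd_add (dA (sm_pd (hu p) j) x)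
    (dA (ContDiff.sum fun q _ => (hA j p q).mul (hu q)) x),
    pd_sum _ (fun q _ => dA ((hA j p q).mul (hu q)) x)]
  congr 1
  exact Finset.sum_congr rfl fun q _ => pd_mul (dA (hA j p q) x) (dA (hu q) x) i

theorem alg_LA (S : Fin n → Fin n → ℝ) (hS : ∀ i j, S i j = S j i)
    (A : Fin n → Fin N → Fin N → ℝ) (p : Fin N) (D : Fin n → Fin n → Fin N → ℝ)
    (U : Fin n → Fin N → ℝ) (u : Fin N → ℝ) (H : Fin n → Fin n → ℝ) :
    ∑ i, (∑ j, S i j * (H i j + ∑ q, (D i j q * u q + A j p q * U i q)) +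
      ∑ q, A i p q * ∑ j, S i j * (U j q + ∑ r, A j q r * u r)) =
    ∑ i, ∑ j, S i j * H i j + ∑ q, (∑ l, (∑ i, 2 * (S l i * A i p q)) * U l q +
      (∑ i, ∑ j, S i j * (D i j q + ∑ r, A i p r * A j r q)) * u q) := by
  have h2 : ∑ i, ∑ j, ∑ q, S i j * (A j p q * U i q) =
      ∑ q, ∑ l, (∑ i, S l i * A i p q) * U l q := by
    rw [rot3]
    refine Finset.sum_congr rfl fun q _ => Finset.sum_congr rfl fun l _ => ?_
    rw [Finset.sum_mul]
    exact Finset.sum_congr rfl fun i _ => by ring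
  have h3 : ∑ i, ∑ q, ∑ j, A i p q * (S i j * U j q) =
      ∑ q, ∑ l, (∑ i, S l i * A i p q) * U l q := by
    rw [Finset.sum_comm]
    refine Finset.sum_congr rfl fun q _ => ?_
    rw [Finset.sum_comm]
    refine Finset.sum_congr rfl fun l _ => ?_
    rw [Finset.sum_mul]
    exact Finset.sum_congr rfl fun i _ => by rw [hS l i]; ring
  have h4 : ∑ i, ∑ j, ∑ q, S i j * (D i j q * u q) =
      ∑ q, (∑ i, ∑ j, S i j * D i j q) * u q := by
    rw [rot3]
    refine Finset.sum_congr rfl fun q _ => ?_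
    simp only [Finset.sum_mul]
    exact Finset.sum_congr rfl fun i _ => Finset.sum_congr rfl fun j _ => by ring
  have h5 : ∑ i, ∑ q, ∑ j, ∑ r, A i p q * (S i j * (A j q r * u r)) =
      ∑ q, (∑ i, ∑ j, S i j * ∑ r, A i p r * A j r q) * u q := by
    have e1 : ∀ i, ∑ q, ∑ j, ∑ r, A i p q * (S i j * (A j q r * u r)) =
        ∑ r, ∑ q, ∑ j, A i p q * (S i j * (A j q r * u r)) := fun i => rot3 _
    simp only [e1]
    rw [Finset.sum_comm]
    refine Finset.sum_congr rfl fun r _ => ?_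
    rw [Finset.sum_mul]
    refine Finset.sum_congr rfl fun i _ => ?_
    rw [Finset.sum_comm, Finset.sum_mul]
    refine Finset.sum_congr rfl fun j _ => ?_
    rw [Finset.mul_sum, Finset.sum_mul]
    exact Finset.sum_congr rfl fun q _ => by ring
  have e2 : ∀ q, ∑ l, (∑ i, 2 * (S l i * A i p q)) * U l q =
      2 * ∑ l, (∑ i, S l i * A i p q) * U l q := by
    intro q
    rw [Finset.mul_sum]
    refine Finset.sum_congr rfl fun l _ => ?_
    rw [← Finset.mul_sum]
    ring
  have e3 : ∀ q, (∑ i, ∑ j, S i j * (D i j q + ∑ r, A i p r * A j r q)) * u q =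
      (∑ i, ∑ j, S i j * D i j q) * u q + (∑ i, ∑ j, S i j * ∑ r, A i p r * A j r q) * u q := by
    intro q
    rw [← add_mul, ← Finset.sum_add_distrib]
    congr 1
    refine Finset.sum_congr rfl fun i _ => ?_
    rw [← Finset.sum_add_distrib]
    exact Finset.sum_congr rfl fun j _ => by ring
  have eL : ∀ i, (∑ j, S i j * (H i j + ∑ q, (D i j q * u q + A j p q * U i q)) +
      ∑ q, A i p q * ∑ j, S i j * (U j q + ∑ r, A j q r * u r)) =
      ∑ j, S i j * H i j + ∑ j, ∑ q, S i j * (D i j q * u q) + ∑ j, ∑ q, S i j * (A j p q * U i q)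
      + ∑ q, ∑ j, A i p q * (S i j * U j q) +
      ∑ q, ∑ j, ∑ r, A i p q * (S i j * (A j q r * u r)) := by
    intro i
    simp only [mul_add, Finset.sum_add_distrib, Finset.mul_sum]
    ring
  rw [Finset.sum_congr rfl fun i _ => eL i]
  simp only [e2, e3]
  simp only [Finset.sum_add_distrib]
  rw [h2, h3, h4, h5, ← Finset.mul_sum]
  ring

/-- `LA` is the system with the coefficients `co`. -/
theorem LA_eq {s : MF n} (hs : SmM s) (hsy : ∀ x, (s x).IsSymm) {x : V n}
    (hdv : ∀ j, ∑ i, pd i (fun y => s y i j) x = 0) {A : Cn' n N}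
    (hA : ∀ l p q, ContDiff ℝ ∞ (fun x => A l x p q)) (Q : Mx n N)
    {u : Fin N → V n → ℝ} (hu : ∀ p, ContDiff ℝ ∞ (u p)) (p : Fin N) :
    LA s A Q u p x = LvG s (co s A Q) u p x := by
  have hS : ∀ i j, s x i j = s x j i := fun i j => by
    have := congrFun (congrFun (hsy x) j) i
    simpa [Matrix.transpose_apply] using this
  have h1 : ∀ i, pd i (fun y => ∑ j, s y i j * Dc A j u p y) x =
      ∑ j, (pd i (fun y => s y i j) x * Dc A j u p x + s x i j * pd i (Dc A j u p) x) := by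
    intro i
    rw [pd_sum _ (fun j _ => dA ((hs i j).mul (sm_Dc hA hu j p)) x)]
    exact Finset.sum_congr rfl fun j _ => pd_mul (dA (hs i j) x) (dA (sm_Dc hA hu j p) x) i
  have h2 : ∑ i, ∑ j, pd i (fun y => s y i j) x * Dc A j u p x = 0 := by
    rw [Finset.sum_comm]
    refine Finset.sum_eq_zero fun j _ => ?_
    rw [← Finset.sum_mul, hdv j, zero_mul]
  have h3 := alg_LA (fun i j => s x i j) hS (fun i p q => A i x p q) p
    (fun i j q => pd i (fun y => A j y p q) x) (fun i q => pd i (u q) x) (fun q => u q x)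
    (fun i j => pd i (pd j (u p)) x)
  unfold LA LvG
  have h4 : ∑ i, Dc A i (fun q y => ∑ j, s y i j * Dc A j u q y) p x =
      ∑ i, (∑ j, s x i j * (pd i (pd j (u p)) x + ∑ q, (pd i (fun y => A j y p q) x * u q x +
        A j x p q * pd i (u q) x)) + ∑ q, A i x p q * ∑ j, s x i j * (pd j (u q) x +
        ∑ r, A j x q r * u r x)) := by
    have e1 : ∀ i, Dc A i (fun q y => ∑ j, s y i j * Dc A j u q y) p x =
        ∑ j, pd i (fun y => s y i j) x * Dc A j u p x + (∑ j, s x i j * (pd i (pd j (u p)) x +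
          ∑ q, (pd i (fun y => A j y p q) x * u q x + A j x p q * pd i (u q) x)) +
          ∑ q, A i x p q * ∑ j, s x i j * (pd j (u q) x + ∑ r, A j x q r * u r x)) := by
      intro i
      show pd i (fun y => ∑ j, s y i j * Dc A j u p y) x +
        ∑ q, A i x p q * ∑ j, s x i j * Dc A j u q x = _
      rw [h1, Finset.sum_add_distrib]
      simp only [pd_Dc hA hu]
      rw [add_assoc]
      rfl
    simp only [e1]
    rw [Finset.sum_add_distrib, h2, zero_add]
  rw [h4, h3]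
  unfold Lv
  rw [add_sub_assoc]
  congr 1
  rw [← Finset.sum_sub_distrib]
  refine Finset.sum_congr rfl fun q _ => ?_
  simp only [co, Matrix.of_apply]
  ring

/-! ### The pairing -/

/-- The pairing of `IdA`. -/
def pf (s : MF n) (A₁ A₂ : Cn' n N) (Q₁ Q₂ : Mx n N) : Pf n N N where
  h _ _ _ := 0
  a i x := Matrix.of fun p q => ∑ j, s x i j * (A₁ j x p q - A₂ j x p q)
  b i x := Matrix.of fun p q => ∑ j, s x j i * (A₁ j x q p - A₂ j x q p)
  c x := Matrix.of fun p q => (∑ i, ∑ j, s x i j *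
    ∑ r, (A₁ i x r p * A₁ j x r q - A₂ i x r p * A₂ j x r q)) + (Q₁ x q p - Q₂ x q p)

theorem alg_pf (S : Fin n → Fin n → ℝ) (A B : Fin n → Fin N → Fin N → ℝ)
    (U W : Fin n → Fin N → ℝ) (u w : Fin N → ℝ) (Q : Fin N → Fin N → ℝ) :
    ∑ i, ∑ j, ∑ p, S i j * ((U i p + ∑ q, A i p q * u q) * (W j p + ∑ q, A j p q * w q) -
      (U i p + ∑ q, B i p q * u q) * (W j p + ∑ q, B j p q * w q)) +
      ∑ p, ∑ q, Q p q * u q * w p =
    ∑ p, ∑ q, ((∑ i, (∑ j, S i j * (A j p q - B j p q)) * U i p * w q)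
      + (∑ i, (∑ j, S j i * (A j q p - B j q p)) * u p * W i q)
      + ((∑ i, ∑ j, S i j * ∑ r, (A i r p * A j r q - B i r p * B j r q)) + Q q p) * u p * w q) := by
  have ha : ∑ i, ∑ j, ∑ p, ∑ q, S i j * (U i p * ((A j p q - B j p q) * w q)) =
      ∑ p, ∑ q, ∑ i, (∑ j, S i j * (A j p q - B j p q)) * U i p * w q := by
    rw [rot4]
    refine Finset.sum_congr rfl fun p _ => Finset.sum_congr rfl fun q _ =>
      Finset.sum_congr rfl fun i _ => ?_
    simp only [Finset.sum_mul]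
    exact Finset.sum_congr rfl fun j _ => by ring
  have hb : ∑ i, ∑ j, ∑ p, ∑ q, S i j * ((A i p q - B i p q) * u q * W j p) =
      ∑ p, ∑ q, ∑ i, (∑ j, S j i * (A j q p - B j q p)) * u p * W i q := by
    rw [rot4, Finset.sum_comm]
    refine Finset.sum_congr rfl fun p _ => Finset.sum_congr rfl fun q _ => ?_
    rw [Finset.sum_comm]
    refine Finset.sum_congr rfl fun i _ => ?_
    simp only [Finset.sum_mul]
    exact Finset.sum_congr rfl fun j _ => by ring
  have hc : ∑ i, ∑ j, ∑ r, ∑ p, ∑ q, S i j * ((A i r p * A j r q - B i r p * B j r q) *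
      u p * w q) = ∑ p, ∑ q, (∑ i, ∑ j, S i j * ∑ r, (A i r p * A j r q - B i r p * B j r q)) *
      u p * w q := by
    have e1 : ∀ i j, ∑ r, ∑ p, ∑ q, S i j * ((A i r p * A j r q - B i r p * B j r q) *
        u p * w q) = ∑ p, ∑ q, ∑ r, S i j * ((A i r p * A j r q - B i r p * B j r q) *
        u p * w q) := by
      intro i j
      rw [rot3 (fun p q r => S i j * ((A i r p * A j r q - B i r p * B j r q) * u p * w q))]
    simp only [e1]
    rw [rot4]
    refine Finset.sum_congr rfl fun p _ => Finset.sum_congr rfl fun q _ => ?_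
    simp only [Finset.sum_mul, Finset.mul_sum]
    exact Finset.sum_congr rfl fun i _ => Finset.sum_congr rfl fun j _ =>
      Finset.sum_congr rfl fun r _ => by ring
  have hq : ∑ p, ∑ q, Q p q * u q * w p = ∑ p, ∑ q, Q q p * u p * w q := Finset.sum_comm
  have eR : ∀ p q, ((∑ i, (∑ j, S i j * (A j p q - B j p q)) * U i p * w q)
      + (∑ i, (∑ j, S j i * (A j q p - B j q p)) * u p * W i q)
      + ((∑ i, ∑ j, S i j * ∑ r, (A i r p * A j r q - B i r p * B j r q)) + Q q p) * u p * w q) =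
      (∑ i, (∑ j, S i j * (A j p q - B j p q)) * U i p * w q)
      + (∑ i, (∑ j, S j i * (A j q p - B j q p)) * u p * W i q)
      + (∑ i, ∑ j, S i j * ∑ r, (A i r p * A j r q - B i r p * B j r q)) * u p * w q
      + Q q p * u p * w q := fun p q => by ring
  simp only [eR, Finset.sum_add_distrib]
  rw [← ha, ← hb, ← hc, hq]
  congr 1
  simp only [← Finset.sum_add_distrib]
  refine Finset.sum_congr rfl fun i _ => Finset.sum_congr rfl fun j _ =>
    Finset.sum_congr rfl fun p _ => ?_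
  have f1 : ∀ (a b : Fin N → ℝ), (∑ q, a q) * (∑ q, b q) = ∑ q, ∑ r, a q * b r := fun a b => by
    rw [Finset.sum_mul_sum]
  have f2 : ∑ q, ∑ r, S i j * ((A i p q * A j p r - B i p q * B j p r) * u q * w r) =
      S i j * ((∑ q, A i p q * u q) * (∑ q, A j p q * w q) -
        (∑ q, B i p q * u q) * (∑ q, B j p q * w q)) := by
    rw [f1, f1, ← Finset.sum_sub_distrib, Finset.mul_sum]
    refine Finset.sum_congr rfl fun q _ => ?_
    rw [← Finset.sum_sub_distrib, Finset.mul_sum]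
    exact Finset.sum_congr rfl fun r _ => by ring
  have f3 : ∑ q, S i j * (U i p * ((A j p q - B j p q) * w q)) =
      S i j * (U i p * (∑ q, A j p q * w q - ∑ q, B j p q * w q)) := by
    rw [← Finset.sum_sub_distrib, Finset.mul_sum, Finset.mul_sum]
    exact Finset.sum_congr rfl fun q _ => by ring
  have f4 : ∑ q, S i j * ((A i p q - B i p q) * u q * W j p) =
      S i j * ((∑ q, A i p q * u q - ∑ q, B i p q * u q) * W j p) := by
    rw [← Finset.sum_sub_distrib, Finset.sum_mul, Finset.mul_sum]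
    exact Finset.sum_congr rfl fun q _ => by ring
  rw [Finset.sum_add_distrib, Finset.sum_add_distrib, f2, f3, f4]
  ring

theorem uv_pf (s : MF n) (A₁ A₂ : Cn' n N) (Q₁ Q₂ : Mx n N) (u v : Fin N → V n → ℝ) (x : V n) :
    (pf s A₁ A₂ Q₁ Q₂).uv u v x = (∑ i, ∑ j, ∑ p, s x i j * (Dc A₁ i u p x * Dc A₁ j v p x -
      Dc A₂ i u p x * Dc A₂ j v p x)) + ∑ p, ∑ q, (Q₁ x p q - Q₂ x p q) * u q x * v p x := by
  have h := alg_pf (fun i j => s x i j) (fun i p q => A₁ i x p q) (fun i p q => A₂ i x p q)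
    (fun i p => pd i (u p) x) (fun i p => pd i (v p) x) (fun q => u q x) (fun q => v q x)
    (fun p q => Q₁ x p q - Q₂ x p q)
  unfold Dc
  rw [h]
  unfold Pf.uv
  simp only [pf, Matrix.of_apply, Matrix.zero_apply, zero_mul, Finset.sum_const_zero, zero_add]

/-- `IdA` gives `IdP`. -/
theorem idP_of_idA {s : MF n} (hs : SmM s) (hsy : ∀ x, (s x).IsSymm)
    (hdv : ∀ x ∈ Bn n, ∀ j, ∑ i, pd i (fun y => s y i j) x = 0) {A₁ A₂ : Cn' n N}
    (hA₁ : ∀ l p q, ContDiff ℝ ∞ (fun x => A₁ l x p q))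
    (hA₂ : ∀ l p q, ContDiff ℝ ∞ (fun x => A₂ l x p q)) {Q₁ Q₂ : Mx n N}
    (h : IdA s A₁ A₂ Q₁ Q₂) : IdP s s (co s A₁ Q₁) (co s A₂ Q₂) (pf s A₁ A₂ Q₁ Q₂) := by
  have hsub : Bs n (3 / 4) ⊆ Bn n := by
    intro x hx
    have : HY.sq x < (3 / 4 : ℝ) ^ 2 := hx
    show HY.sq x < 1
    linarith
  intro u v hu hv h1 h2
  have := h u v hu hv (fun x hx p => by
    rw [LA_eq hs hsy (hdv x (hsub hx)) hA₁ Q₁ hu p]; exact h1 x hx p) (fun x hx p => by
    rw [LA_eq hs hsy (hdv x (hsub hx)) hA₂ Q₂ hv p]; exact h2 x hx p)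
  rw [← this]
  exact setIntegral_congr_fun (by
    exact (isOpen_lt continuous_sq continuous_const).measurableSet) fun x _ => uv_pf _ _ _ _ _ _ _ x

end Vale.Agent.P088.R2.H808.J
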