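import Vale.Agent.P088.R2.H558.E1

/-!
# P088, systems on pairs: `∑ λ_j(m) q_j + ζ(m) |q|² / 2` on the diagonal (row T2P)

`m = (x + y) / 2`, `q = x - y`.
-/

open MeasureTheory Set
open scoped ContDiff Matrix

noncomputable section

namespace Vale.Agent.P088.R2.H808.J

open Vale.Agent.P088.LR Vale.Agent.P088.HY

variable {n : ℕ}

/-- The midpoint. -/
def mid (z : VV n) : V n := (1 / 2 : ℝ) • (z.1 + z.2)

theorem mid_diag (x : V n) : mid (x, x) = x := by
  funext j
  simp only [mid, Pi.smul_apply, Pi.add_apply, smul_eq_mul]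
  ring

/-- The midpoint as a linear map. -/
def midL (n : ℕ) : VV n →L[ℝ] V n :=
  (1 / 2 : ℝ) • (ContinuousLinearMap.fst ℝ (V n) (V n) + ContinuousLinearMap.snd ℝ (V n) (V n))

theorem mid_eq : (mid : VV n → V n) = midL n := by
  funext z
  simp [mid, midL]

theorem sm_mid {g : V n → ℝ} (hg : ContDiff ℝ ∞ g) : ContDiff ℝ ∞ (fun z : VV n => g (mid z)) := by
  rw [mid_eq]
  exact hg.comp (midL n).contDiff

theorem dd_mid {g : V n → ℝ} (hg : ContDiff ℝ ∞ g) (e z : VV n) :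
    dd e (fun z => g (mid z)) z = fderiv ℝ g (mid z) (mid e) := by
  unfold dd
  have hd : DifferentiableAt ℝ g (mid z) := (hg.differentiable (by simp)).differentiableAt
  have h : (fun z : VV n => g (mid z)) = g ∘ midL n := by rw [← mid_eq]; rfl
  have hd' : DifferentiableAt ℝ g (midL n z) := by rw [← mid_eq]; exact hd
  rw [h, fderiv_comp z hd' (midL n).differentiableAt, ContinuousLinearMap.fderiv,
    ContinuousLinearMap.comp_apply, ← mid_eq]

theorem sm_mid_d {g : V n → ℝ} (hg : ContDiff ℝ ∞ g) (e : VV n) :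
    ContDiff ℝ ∞ (dd e (fun z : VV n => g (mid z))) := by
  have h := (sm_mid hg).fderiv_right (m := ∞) (by simp)
  exact h.clm_apply contDiff_const

/-- The difference of the coordinates. -/
def qc (j : Fin n) (z : VV n) : ℝ := z.1 j - z.2 j

theorem sm_qc (j : Fin n) : ContDiff ℝ ∞ (qc j : VV n → ℝ) := (contDiff_fst' j).sub (contDiff_snd' j)

theorem dCD {f : VV n → ℝ} (hf : ContDiff ℝ ∞ f) (z : VV n) : DifferentiableAt ℝ f z :=
  (hf.differentiable (by simp)).differentiableAt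

theorem dd_qc (e : VV n) (j : Fin n) (z : VV n) : dd e (qc j) z = qc j e := by
  have h : (qc j : VV n → ℝ) = fun z => z.1 j - z.2 j := rfl
  rw [h, dd_sub (dCD (contDiff_fst' j) z) (dCD (contDiff_snd' j) z), dd_fst, dd_snd]

theorem qc_diag (j : Fin n) (x : V n) : qc j ((x, x) : VV n) = 0 := sub_self _

/-- The function. -/
def kap (lam : Fin n → V n → ℝ) (ze : V n → ℝ) (z : VV n) : ℝ :=
  ∑ j, lam j (mid z) * qc j z + ze (mid z) * (1 / 2 * ∑ j, qc j z * qc j z)

theorem sm_kap {lam : Fin n → V n → ℝ} {ze : V n → ℝ} (hl : ∀ j, ContDiff ℝ ∞ (lam j))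
    (hz : ContDiff ℝ ∞ ze) : ContDiff ℝ ∞ (kap lam ze) :=
  (ContDiff.sum fun j _ => (sm_mid (hl j)).mul (sm_qc j)).add
    ((sm_mid hz).mul (contDiff_const.mul (ContDiff.sum fun j _ => (sm_qc j).mul (sm_qc j))))

theorem kap_diag (lam : Fin n → V n → ℝ) (ze : V n → ℝ) (x : V n) : kap lam ze (x, x) = 0 := by
  unfold kap
  simp only [qc_diag, mul_zero, Finset.sum_const_zero, add_zero]

theorem dd_kap {lam : Fin n → V n → ℝ} {ze : V n → ℝ} (hl : ∀ j, ContDiff ℝ ∞ (lam j))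
    (hz : ContDiff ℝ ∞ ze) (e z : VV n) :
    dd e (kap lam ze) z = ∑ j, (dd e (fun z => lam j (mid z)) z * qc j z + lam j (mid z) * qc j e)
      + (dd e (fun z => ze (mid z)) z * (1 / 2 * ∑ j, qc j z * qc j z) +
        ze (mid z) * ∑ j, qc j z * qc j e) := by
  have h0 : kap lam ze = fun z => ∑ j, lam j (mid z) * qc j z +
      ze (mid z) * (1 / 2 * ∑ j, qc j z * qc j z) := rfl
  have s1 : ∀ j, ContDiff ℝ ∞ (fun z : VV n => lam j (mid z) * qc j z) := fun j =>
    (sm_mid (hl j)).mul (sm_qc j)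
  have s2 : ContDiff ℝ ∞ (fun z : VV n => 1 / 2 * ∑ j, qc j z * qc j z) :=
    contDiff_const.mul (ContDiff.sum fun j _ => (sm_qc j).mul (sm_qc j))
  rw [h0, dd_add (dCD (ContDiff.sum fun j _ => s1 j) z) (dCD ((sm_mid hz).mul s2) z),
    dd_sum _ (fun j _ => dCD (s1 j) z), dd_mul (dCD (sm_mid hz) z) (dCD s2 z)]
  congr 1
  · refine Finset.sum_congr rfl fun j _ => ?_
    rw [dd_mul (dCD (sm_mid (hl j)) z) (dCD (sm_qc j) z), dd_qc]
  · congr 1
    rw [dd_const_mul, dd_sum _ (fun j _ => dCD ((sm_qc j).mul (sm_qc j)) z)]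
    have : ∀ j, dd e (fun z => qc j z * qc j z) z = 2 * (qc j z * qc j e) := fun j => by
      rw [dd_mul (dCD (sm_qc j) z) (dCD (sm_qc j) z), dd_qc]; ring
    simp only [this]
    rw [← Finset.mul_sum]
    ring

theorem dd_kap_diag {lam : Fin n → V n → ℝ} {ze : V n → ℝ} (hl : ∀ j, ContDiff ℝ ∞ (lam j))
    (hz : ContDiff ℝ ∞ ze) (e : VV n) (x : V n) :
    dd e (kap lam ze) (x, x) = ∑ j, lam j x * qc j e := by
  rw [dd_kap hl hz]
  simp only [qc_diag, mid_diag, mul_zero, zero_mul, Finset.sum_const_zero, add_zero, zero_add]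

theorem ddd_kap_diag {lam : Fin n → V n → ℝ} {ze : V n → ℝ} (hl : ∀ j, ContDiff ℝ ∞ (lam j))
    (hz : ContDiff ℝ ∞ ze) (e e' : VV n) (x : V n) :
    dd e' (dd e (kap lam ze)) (x, x) = ∑ j, (fderiv ℝ (lam j) x (mid e) * qc j e' +
      fderiv ℝ (lam j) x (mid e') * qc j e) + ze x * ∑ j, qc j e' * qc j e := by
  have h0 : dd e (kap lam ze) = fun z => ∑ j, (dd e (fun z => lam j (mid z)) z * qc j z +
      lam j (mid z) * qc j e) + (dd e (fun z => ze (mid z)) z * (1 / 2 * ∑ j, qc j z * qc j z) +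
        ze (mid z) * ∑ j, qc j z * qc j e) := funext fun z => dd_kap hl hz e z
  have s1 : ∀ j, ContDiff ℝ ∞ (fun z : VV n => dd e (fun z => lam j (mid z)) z * qc j z) :=
    fun j => (sm_mid_d (hl j) e).mul (sm_qc j)
  have s2 : ∀ j, ContDiff ℝ ∞ (fun z : VV n => lam j (mid z) * qc j e) := fun j =>
    (sm_mid (hl j)).mul contDiff_const
  have s3 : ContDiff ℝ ∞ (fun z : VV n => 1 / 2 * ∑ j, qc j z * qc j z) :=
    contDiff_const.mul (ContDiff.sum fun j _ => (sm_qc j).mul (sm_qc j))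
  have s4 : ContDiff ℝ ∞ (fun z : VV n => ∑ j, qc j z * qc j e) :=
    ContDiff.sum fun j _ => (sm_qc j).mul contDiff_const
  rw [h0, dd_add (dCD (ContDiff.sum fun j _ => (s1 j).add (s2 j)) _)
    (dCD (((sm_mid_d hz e).mul s3).add ((sm_mid hz).mul s4)) _),
    dd_sum _ (fun j _ => dCD ((s1 j).add (s2 j)) _),
    dd_add (dCD ((sm_mid_d hz e).mul s3) _) (dCD ((sm_mid hz).mul s4) _),
    dd_mul (dCD (sm_mid_d hz e) _) (dCD s3 _), dd_mul (dCD (sm_mid hz) _) (dCD s4 _)]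
  have e1 : ∀ j, dd e' (fun z => dd e (fun z => lam j (mid z)) z * qc j z + lam j (mid z) * qc j e)
      (x, x) = fderiv ℝ (lam j) x (mid e) * qc j e' + fderiv ℝ (lam j) x (mid e') * qc j e := by
    intro j
    rw [dd_add (dCD (s1 j) _) (dCD (s2 j) _), dd_mul (dCD (sm_mid_d (hl j) e) _) (dCD (sm_qc j) _),
      dd_qc, dd_mul (dCD (sm_mid (hl j)) _) (dCD contDiff_const _), dd_const, dd_mid (hl j),
      dd_mid (hl j), mid_diag, qc_diag]
    ring
  have e2 : dd e' (fun z : VV n => 1 / 2 * ∑ j, qc j z * qc j z) (x, x) = 0 := by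
    rw [dd_const_mul, dd_sum _ (fun j _ => dCD ((sm_qc j).mul (sm_qc j)) _)]
    have : ∀ j, dd e' (fun z => qc j z * qc j z) ((x, x) : VV n) = 0 := fun j => by
      rw [dd_mul (dCD (sm_qc j) _) (dCD (sm_qc j) _), qc_diag]; ring
    simp only [this, Finset.sum_const_zero, mul_zero]
  have e3 : dd e' (fun z : VV n => ∑ j, qc j z * qc j e) (x, x) = ∑ j, qc j e' * qc j e := by
    rw [dd_sum _ (fun j _ => dCD ((sm_qc j).mul contDiff_const) _)]
    refine Finset.sum_congr rfl fun j _ => ?_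
    rw [dd_mul (dCD (sm_qc j) _) (dCD contDiff_const _), dd_qc, dd_const]
    ring
  simp only [e1, e2, e3, qc_diag, mid_diag, mul_zero, zero_mul, Finset.sum_const_zero, add_zero,
    zero_add]

/-! ### The coordinate directions -/

theorem qc_x (i j : Fin n) : qc j ((Pi.single i 1, 0) : VV n) = if j = i then 1 else 0 := by
  simp [qc, Pi.single_apply]

theorem qc_y (i j : Fin n) : qc j ((0, Pi.single i 1) : VV n) = -(if j = i then 1 else 0) := by
  simp [qc, Pi.single_apply]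

theorem mid_x (i : Fin n) : mid ((Pi.single i 1, 0) : VV n) = (1 / 2 : ℝ) • (Pi.single i 1 : V n) := by
  simp [mid]

theorem mid_y (i : Fin n) : mid ((0, Pi.single i 1) : VV n) = (1 / 2 : ℝ) • (Pi.single i 1 : V n) := by
  simp [mid]

theorem dx_kap {lam : Fin n → V n → ℝ} {ze : V n → ℝ} (hl : ∀ j, ContDiff ℝ ∞ (lam j))
    (hz : ContDiff ℝ ∞ ze) (i : Fin n) (x : V n) : dx i (kap lam ze) (x, x) = lam i x := by
  rw [dx_eq, dd_kap_diag hl hz]
  simp only [qc_x, mul_ite, mul_one, mul_zero, Finset.sum_ite_eq', Finset.mem_univ, if_true]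

theorem dy_kap {lam : Fin n → V n → ℝ} {ze : V n → ℝ} (hl : ∀ j, ContDiff ℝ ∞ (lam j))
    (hz : ContDiff ℝ ∞ ze) (i : Fin n) (x : V n) : dy i (kap lam ze) (x, x) = -lam i x := by
  rw [dy_eq, dd_kap_diag hl hz]
  simp only [qc_y, mul_neg, mul_ite, mul_one, mul_zero, Finset.sum_neg_distrib,
    Finset.sum_ite_eq', Finset.mem_univ, if_true]

theorem dxx_kap {lam : Fin n → V n → ℝ} {ze : V n → ℝ} (hl : ∀ j, ContDiff ℝ ∞ (lam j))
    (hz : ContDiff ℝ ∞ ze) (i j : Fin n) (x : V n) : dx i (dx j (kap lam ze)) (x, x) =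
      1 / 2 * (pd j (lam i) x + pd i (lam j) x) + ze x * (1 : Matrix (Fin n) (Fin n) ℝ) i j := by
  rw [dx_eq j, dx_eq i, ddd_kap_diag hl hz]
  simp only [qc_x, mid_x, map_smul, smul_eq_mul, mul_ite, mul_one, mul_zero,
    Finset.sum_add_distrib, Finset.sum_ite_eq', Finset.mem_univ, if_true, Matrix.one_apply]
  unfold pd
  by_cases h : i = j
  · subst h; simp; ring
  · have h' : ¬ j = i := fun e => h e.symm
    simp [h, h']; ring

theorem dyy_kap {lam : Fin n → V n → ℝ} {ze : V n → ℝ} (hl : ∀ j, ContDiff ℝ ∞ (lam j))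
    (hz : ContDiff ℝ ∞ ze) (i j : Fin n) (x : V n) : dy i (dy j (kap lam ze)) (x, x) =
      -(1 / 2 * (pd j (lam i) x + pd i (lam j) x)) +
        ze x * (1 : Matrix (Fin n) (Fin n) ℝ) i j := by
  rw [dy_eq j, dy_eq i, ddd_kap_diag hl hz]
  simp only [qc_y, mid_y, map_smul, smul_eq_mul, mul_neg, neg_neg, mul_ite, mul_one, mul_zero,
    Finset.sum_add_distrib, Finset.sum_neg_distrib, Finset.sum_ite_eq', Finset.mem_univ, if_true,
    Matrix.one_apply]
  unfold pd
  by_cases h : i = j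
  · subst h; simp; ring
  · have h' : ¬ j = i := fun e => h e.symm
    simp [h, h']; ring

end Vale.Agent.P088.R2.H808.J
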