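import Vale.Agent.P088.R2.H808.J.Alg
import Mathlib.LinearAlgebra.Matrix.Kronecker

/-!
# P088, systems on pairs: matrix valued functions as vectors (rows T2P, T2B)
-/

open MeasureTheory Set
open scoped ContDiff Matrix Kronecker

noncomputable section

namespace Vale.Agent.P088.R2.H808.J

open Vale.Agent.P088.LR Vale.Agent.P088.HY

variable {n N : ℕ}

/-! ### Bounds of derivatives -/

theorem cl_nonneg {k : ℕ} {A : ℝ} {f : V n → ℝ} (h : Cl k A f) : 0 ≤ A :=
  (norm_nonneg _).trans (h 0 (Nat.zero_le _) 0)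

theorem cl_le {k l : ℕ} {A B : ℝ} {f : V n → ℝ} (h : Cl k A f) (hl : l ≤ k) (hAB : A ≤ B) :
    Cl l B f := fun i hi x => (h i (hi.trans hl) x).trans hAB

theorem cl_mul {k : ℕ} {A B : ℝ} {f g : V n → ℝ} (hf : ContDiff ℝ ∞ f) (hg : ContDiff ℝ ∞ g)
    (hA : Cl k A f) (hB : Cl k B g) : Cl k (2 ^ k * (A * B)) (fun x => f x * g x) := by
  intro l hl x
  have hA0 := cl_nonneg hA
  have hB0 := cl_nonneg hB
  have h1 := norm_iteratedFDeriv_mul_le (n := l) hf hg x (by exact_mod_cast le_top)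
  refine h1.trans ?_
  calc ∑ i ∈ Finset.range (l + 1), (l.choose i : ℝ) * ‖iteratedFDeriv ℝ i f x‖ *
        ‖iteratedFDeriv ℝ (l - i) g x‖
      ≤ ∑ i ∈ Finset.range (l + 1), (l.choose i : ℝ) * (A * B) := by
        refine Finset.sum_le_sum fun i hi => ?_
        have hi' : i ≤ l := by simpa [Nat.lt_succ_iff] using hi
        rw [mul_assoc]
        refine mul_le_mul_of_nonneg_left ?_ (by positivity)
        exact mul_le_mul (hA i (hi'.trans hl) x) (hB (l - i) (by omega) x) (norm_nonneg _) hA0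
    _ = 2 ^ l * (A * B) := by
        rw [← Finset.sum_mul]
        congr 1
        exact_mod_cast Nat.sum_range_choose l
    _ ≤ 2 ^ k * (A * B) := by
        refine mul_le_mul_of_nonneg_right ?_ (by positivity)
        exact pow_le_pow_right₀ (by norm_num) hl

theorem cl_add {k : ℕ} {A B : ℝ} {f g : V n → ℝ} (hf : ContDiff ℝ ∞ f) (hg : ContDiff ℝ ∞ g)
    (hA : Cl k A f) (hB : Cl k B g) : Cl k (A + B) (fun x => f x + g x) := by
  intro l hl x
  have h1 : (fun x => f x + g x) = f + g := rfl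
  rw [h1, iteratedFDeriv_add_apply (hf.of_le (by exact_mod_cast le_top)).contDiffAt
    (hg.of_le (by exact_mod_cast le_top)).contDiffAt]
  exact (norm_add_le _ _).trans (add_le_add (hA l hl x) (hB l hl x))

theorem cl_cst (k : ℕ) (c : ℝ) : Cl k |c| (fun _ : V n => c) := by
  intro l _ x
  rcases Nat.eq_zero_or_pos l with rfl | hl
  · rw [norm_iteratedFDeriv_zero, Real.norm_eq_abs]
  · rw [iteratedFDeriv_const_of_ne hl.ne']
    simp

theorem cl_cmul {k : ℕ} {A c : ℝ} {f : V n → ℝ} (hf : ContDiff ℝ ∞ f) (hA : Cl k A f) :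
    Cl k (|c| * A) (fun x => c * f x) := by
  intro l hl x
  have h1 : (fun x => c * f x) = c • f := rfl
  rw [h1, iteratedFDeriv_const_smul_apply (hf.of_le (by exact_mod_cast le_top)).contDiffAt,
    norm_smul, Real.norm_eq_abs]
  exact mul_le_mul_of_nonneg_left (hA l hl x) (abs_nonneg _)

theorem cl_sub {k : ℕ} {A B : ℝ} {f g : V n → ℝ} (hf : ContDiff ℝ ∞ f) (hg : ContDiff ℝ ∞ g)
    (hA : Cl k A f) (hB : Cl k B g) : Cl k (A + B) (fun x => f x - g x) := by
  have h := cl_add hf (contDiff_const.mul hg) hA (cl_cmul (c := -1) hg hB)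
  simp only [abs_neg, abs_one, one_mul, neg_mul, ← sub_eq_add_neg] at h
  exact h

theorem cl_sum {ι : Type*} (t : Finset ι) {k : ℕ} {A : ℝ} {f : ι → V n → ℝ}
    (hf : ∀ m, ContDiff ℝ ∞ (f m)) (h : ∀ m, Cl k A (f m)) :
    Cl k (t.card * A) (fun x => ∑ m ∈ t, f m x) := by
  classical
  induction t using Finset.induction_on with
  | empty =>
    have := cl_cst (n := n) k 0
    simpa using this
  | insert a t ha ih =>
    have h1 := cl_add (hf a) (ContDiff.sum fun m _ => hf m) (h a) ih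
    simp only [Finset.sum_insert ha, Finset.card_insert_of_notMem ha]
    push_cast
    have e : ((t.card : ℝ) + 1) * A = A + t.card * A := by ring
    rw [e]
    exact h1

theorem cl_pd {k : ℕ} {δ : ℝ} {f : V n → ℝ} (hf : ContDiff ℝ ∞ f) (h : Cl (k + 1) δ f)
    (j : Fin n) : Cl k δ (pd j f) := by
  intro l hl x
  have h1 : ‖(ContinuousLinearMap.apply ℝ ℝ (Pi.single j (1 : ℝ) : V n) : (V n →L[ℝ] ℝ) →L[ℝ] ℝ)‖
      ≤ 1 := by
    refine ContinuousLinearMap.opNorm_le_bound _ zero_le_one fun T => ?_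
    rw [ContinuousLinearMap.apply_apply, one_mul]
    refine (T.le_opNorm _).trans ?_
    rw [Pi.norm_single, norm_one, mul_one]
  have h2 : pd j f = (ContinuousLinearMap.apply ℝ ℝ (Pi.single j (1 : ℝ) : V n)) ∘ fderiv ℝ f :=
    rfl
  have hfd : ContDiff ℝ ∞ (fderiv ℝ f) := hf.fderiv_right (m := ∞) (by simp)
  rw [h2, ContinuousLinearMap.iteratedFDeriv_comp_left _ hfd.contDiffAt (by exact_mod_cast le_top)]
  refine (ContinuousLinearMap.norm_compContinuousMultilinearMap_le _ _).trans ?_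
  rw [norm_iteratedFDeriv_fderiv]
  calc _ ≤ 1 * ‖iteratedFDeriv ℝ (l + 1) f x‖ := mul_le_mul_of_nonneg_right h1 (norm_nonneg _)
    _ ≤ δ := by rw [one_mul]; exact h (l + 1) (by omega) x

/-! ### The coefficients `co` are fine -/

theorem sm_co_b {s : MF n} (hs : SmM s) {A : Cn' n N}
    (hA : ∀ l p q, ContDiff ℝ ∞ (fun x => A l x p q)) (Q : Mx n N) (l : Fin n) (p q : Fin N) :
    ContDiff ℝ ∞ (fun x => (co s A Q).b l x p q) := by
  simp only [co, Matrix.of_apply]
  exact ContDiff.sum fun i _ => contDiff_const.mul ((hs l i).mul (hA i p q))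

theorem sm_co_c {s : MF n} (hs : SmM s) {A : Cn' n N}
    (hA : ∀ l p q, ContDiff ℝ ∞ (fun x => A l x p q)) {Q : Mx n N}
    (hQ : ∀ p q, ContDiff ℝ ∞ (fun x => Q x p q)) (p q : Fin N) :
    ContDiff ℝ ∞ (fun x => (co s A Q).c x p q) := by
  simp only [co, Matrix.of_apply]
  exact (ContDiff.sum fun i _ => ContDiff.sum fun j _ => (hs i j).mul ((sm_pd (hA j p q) i).add
    (ContDiff.sum fun r _ => (hA i p r).mul (hA j r q)))).sub (hQ p q)

/-- Bounds of `co`. -/
theorem co_ok {k : ℕ} {ε M : ℝ} (hε : ε ≤ 1) {s : MF n} (hs : SmM s)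
    (hcl : ∀ i j, Cl k ε (fun x => s x i j - (1 : Matrix (Fin n) (Fin n) ℝ) i j))
    {A : Cn' n N} (hA : AOk (k + 1) ε A) {Q : Mx n N} (hQ : QOk k M Q) :
    CoOk k (n * (2 * (2 ^ k * (2 * ε))))
      (n * (n * (2 ^ k * (2 * (1 + N * (2 ^ k * (1 * 1)))))) + M) (co s A Q) := by
  have hs2 : ∀ i j, Cl k 2 (fun x => s x i j) := by
    intro i j
    have h1 := cl_add ((hs i j).sub contDiff_const) contDiff_const (hcl i j)
      (cl_cst (n := n) k ((1 : Matrix (Fin n) (Fin n) ℝ) i j))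
    have h2 : (fun x => s x i j - (1 : Matrix (Fin n) (Fin n) ℝ) i j +
      (1 : Matrix (Fin n) (Fin n) ℝ) i j) = fun x => s x i j := by
      funext x; ring
    rw [h2] at h1
    refine cl_le h1 le_rfl ?_
    have : |(1 : Matrix (Fin n) (Fin n) ℝ) i j| ≤ 1 := by
      rw [Matrix.one_apply]
      split <;> simp
    linarith
  refine ⟨sm_co_b hs hA.sm Q, sm_co_c hs hA.sm hQ.sm, fun l p q => ?_, fun p q => ?_⟩
  · simp only [co, Matrix.of_apply]
    have h := cl_sum (n := n) Finset.univ (k := k) (A := 2 * (2 ^ k * (2 * ε)))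
      (f := fun (i : Fin n) x => 2 * (s x l i * A i x p q))
      (fun i => contDiff_const.mul ((hs l i).mul (hA.sm i p q))) (fun i => by
        have := cl_cmul (c := 2) ((hs l i).mul (hA.sm i p q))
          (cl_mul (hs l i) (hA.sm i p q) (hs2 l i) (cl_le (hA.bd i p q) (Nat.le_succ k) le_rfl))
        simpa using this)
    simpa using h
  · simp only [co, Matrix.of_apply]
    have hA1 : ∀ i p q, Cl k 1 (fun x => A i x p q) := fun i p q =>
      cl_le (hA.bd i p q) (Nat.le_succ k) hε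
    have h0 : ∀ (i j : Fin n), Cl k (1 + N * (2 ^ k * (1 * 1)))
        (fun x => pd i (fun y => A j y p q) x + ∑ r, A i x p r * A j x r q) := by
      intro i j
      refine cl_add (sm_pd (hA.sm j p q) i) (ContDiff.sum fun r _ =>
        (hA.sm i p r).mul (hA.sm j r q)) (cl_le (cl_pd (hA.sm j p q) (hA.bd j p q) i) le_rfl hε) ?_
      have := cl_sum (n := n) Finset.univ (k := k) (A := 2 ^ k * (1 * 1))
        (f := fun (r : Fin N) x => A i x p r * A j x r q)
        (fun r => (hA.sm i p r).mul (hA.sm j r q))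
        (fun r => cl_mul (hA.sm i p r) (hA.sm j r q) (hA1 i p r) (hA1 j r q))
      simpa using this
    have sm0 : ∀ (i j : Fin n), ContDiff ℝ ∞
        (fun x => pd i (fun y => A j y p q) x + ∑ r, A i x p r * A j x r q) := fun i j =>
      (sm_pd (hA.sm j p q) i).add (ContDiff.sum fun r _ => (hA.sm i p r).mul (hA.sm j r q))
    have h1 : ∀ i : Fin n, Cl k (n * (2 ^ k * (2 * (1 + N * (2 ^ k * (1 * 1)))))) (fun x =>
        ∑ j, s x i j * (pd i (fun y => A j y p q) x + ∑ r, A i x p r * A j x r q)) := by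
      intro i
      have := cl_sum (n := n) Finset.univ (k := k) (A := 2 ^ k * (2 * (1 + N * (2 ^ k * (1 * 1)))))
        (f := fun (j : Fin n) x => s x i j * (pd i (fun y => A j y p q) x +
          ∑ r, A i x p r * A j x r q)) (fun j => (hs i j).mul (sm0 i j))
        (fun j => cl_mul (hs i j) (sm0 i j) (hs2 i j) (h0 i j))
      simpa using this
    have h2 := cl_sum (n := n) Finset.univ (k := k)
      (A := n * (2 ^ k * (2 * (1 + N * (2 ^ k * (1 * 1))))))
      (f := fun (i : Fin n) x => ∑ j, s x i j * (pd i (fun y => A j y p q) x +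
        ∑ r, A i x p r * A j x r q)) (fun i => ContDiff.sum fun j _ => (hs i j).mul (sm0 i j)) h1
    have h3 := cl_sub (ContDiff.sum fun i _ => ContDiff.sum fun j _ => (hs i j).mul (sm0 i j))
      (hQ.sm p q) h2 (hQ.bd p q)
    simpa using h3

/-! ### Matrices as vectors -/

/-- The first index of a pair. -/
def i1 (P : Fin (N * N)) : Fin N := (finProdFinEquiv.symm P).1

/-- The second index of a pair. -/
def i2 (P : Fin (N * N)) : Fin N := (finProdFinEquiv.symm P).2

/-- The pair of two indices. -/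
def ip (p q : Fin N) : Fin (N * N) := finProdFinEquiv (p, q)

@[simp] theorem i1_ip (p q : Fin N) : i1 (ip p q) = p := by simp [i1, ip]

@[simp] theorem i2_ip (p q : Fin N) : i2 (ip p q) = q := by simp [i2, ip]

theorem ip_i (P : Fin (N * N)) : ip (i1 P) (i2 P) = P := Equiv.apply_symm_apply _ _

theorem sum_ip (f : Fin (N * N) → ℝ) : ∑ P, f P = ∑ p, ∑ q, f (ip p q) := by
  rw [← Equiv.sum_comp finProdFinEquiv f, Fintype.sum_prod_type]
  rfl

/-- `X ⊗ 1`. -/
def mL (X : Matrix (Fin N) (Fin N) ℝ) : Matrix (Fin (N * N)) (Fin (N * N)) ℝ :=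
  (X ⊗ₖ (1 : Matrix (Fin N) (Fin N) ℝ)).submatrix finProdFinEquiv.symm finProdFinEquiv.symm

/-- `1 ⊗ X`. -/
def mR (X : Matrix (Fin N) (Fin N) ℝ) : Matrix (Fin (N * N)) (Fin (N * N)) ℝ :=
  ((1 : Matrix (Fin N) (Fin N) ℝ) ⊗ₖ X).submatrix finProdFinEquiv.symm finProdFinEquiv.symm

theorem mL_apply (X : Matrix (Fin N) (Fin N) ℝ) (P P' : Fin (N * N)) :
    mL X P P' = X (i1 P) (i1 P') * (1 : Matrix (Fin N) (Fin N) ℝ) (i2 P) (i2 P') := rfl

theorem mR_apply (X : Matrix (Fin N) (Fin N) ℝ) (P P' : Fin (N * N)) :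
    mR X P P' = (1 : Matrix (Fin N) (Fin N) ℝ) (i1 P) (i1 P') * X (i2 P) (i2 P') := rfl

theorem mL_mR (X Y : Matrix (Fin N) (Fin N) ℝ) : mL X * mR Y = mR Y * mL X := by
  unfold mL mR
  rw [Matrix.submatrix_mul_equiv, Matrix.submatrix_mul_equiv, ← Matrix.mul_kronecker_mul,
    ← Matrix.mul_kronecker_mul]
  simp

/-- The first operator. -/
def cL (e : Co n N) : Co n (N * N) where
  b l x := mL (e.b l x)
  c x := mL (e.c x)

/-- The second operator. -/
def cR (e : Co n N) : Co n (N * N) where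
  b l x := mR (e.b l x)
  c x := mR (e.c x)

theorem com_LR (e e' : Co n N) : Com (cL e) (cR e') :=
  ⟨fun _ _ _ _ => mL_mR _ _, fun _ _ _ => mL_mR _ _, fun _ _ _ => mL_mR _ _, fun _ _ => mL_mR _ _⟩

theorem cl_one {k : ℕ} {A : ℝ} {f : V n → ℝ} (hf : ContDiff ℝ ∞ f) (hA : Cl k A f)
    (i j : Fin N) : Cl k A (fun x => f x * (1 : Matrix (Fin N) (Fin N) ℝ) i j) := by
  have h := cl_cmul (c := (1 : Matrix (Fin N) (Fin N) ℝ) i j) hf hA
  have e : (fun x => (1 : Matrix (Fin N) (Fin N) ℝ) i j * f x) =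
      fun x => f x * (1 : Matrix (Fin N) (Fin N) ℝ) i j := funext fun x => mul_comm _ _
  rw [e] at h
  refine cl_le h le_rfl ?_
  have : |(1 : Matrix (Fin N) (Fin N) ℝ) i j| ≤ 1 := by
    rw [Matrix.one_apply]
    split <;> simp
  exact mul_le_of_le_one_left (cl_nonneg hA) this

theorem cL_ok {k : ℕ} {ε M : ℝ} {e : Co n N} (h : CoOk k ε M e) : CoOk k ε M (cL e) where
  sb l P P' := by
    simp only [cL, mL_apply]
    exact (h.sb l _ _).mul contDiff_const
  sc P P' := by
    simp only [cL, mL_apply]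
    exact (h.sc _ _).mul contDiff_const
  bb l P P' := by
    simp only [cL, mL_apply]
    exact cl_one (h.sb l _ _) (h.bb l _ _) _ _
  bc P P' := by
    simp only [cL, mL_apply]
    exact cl_one (h.sc _ _) (h.bc _ _) _ _

theorem cR_ok {k : ℕ} {ε M : ℝ} {e : Co n N} (h : CoOk k ε M e) : CoOk k ε M (cR e) where
  sb l P P' := by
    simp only [cR, mR_apply]
    exact contDiff_const.mul (h.sb l _ _)
  sc P P' := by
    simp only [cR, mR_apply]
    exact contDiff_const.mul (h.sc _ _)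
  bb l P P' := by
    simp only [cR, mR_apply, mul_comm ((1 : Matrix (Fin N) (Fin N) ℝ) _ _)]
    exact cl_one (h.sb l _ _) (h.bb l _ _) _ _
  bc P P' := by
    simp only [cR, mR_apply, mul_comm ((1 : Matrix (Fin N) (Fin N) ℝ) _ _)]
    exact cl_one (h.sc _ _) (h.bc _ _) _ _

/-- A matrix valued function as a vector. -/
def fl (k : Fin N → Fin N → VV n → ℝ) : Fin (N * N) → VV n → ℝ := fun P => k (i1 P) (i2 P)

/-- A vector as a matrix valued function. -/
def uf (w : Fin (N * N) → VV n → ℝ) : Fin N → Fin N → VV n → ℝ := fun p q => w (ip p q)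

theorem fl_uf (w : Fin (N * N) → VV n → ℝ) : fl (uf w) = w := by
  funext P z
  simp [fl, uf, ip_i]

theorem Lx_fl (s : MF n) (e : Co n N) (k : Fin N → Fin N → VV n → ℝ) (P : Fin (N * N)) (z : VV n) :
    LxG s (cL e) (fl k) P z = LxG s e (fun p => k p (i2 P)) (i1 P) z := by
  unfold LxG
  rw [sum_ip]
  have h : ∀ p q, (∑ l, (cL e).b l z.1 P (ip p q) * dx l (fl k (ip p q)) z +
      (cL e).c z.1 P (ip p q) * fl k (ip p q) z) = (1 : Matrix (Fin N) (Fin N) ℝ) (i2 P) q *
      (∑ l, e.b l z.1 (i1 P) p * dx l (k p q) z + e.c z.1 (i1 P) p * k p q z) := by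
    intro p q
    simp only [cL, mL_apply, fl]
    rw [i1_ip, i2_ip, mul_add, Finset.mul_sum]
    congr 1
    · exact Finset.sum_congr rfl fun l _ => by ring
    · ring
  simp only [h, Matrix.one_apply, ite_mul, one_mul, zero_mul, Finset.sum_ite_eq,
    Finset.mem_univ, if_true]
  rfl

theorem Ly_fl (s : MF n) (e : Co n N) (k : Fin N → Fin N → VV n → ℝ) (P : Fin (N * N)) (z : VV n) :
    LyG s (cR e) (fl k) P z = LyG s e (fun q => k (i1 P) q) (i2 P) z := by
  unfold LyG
  rw [sum_ip]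
  have h : ∀ p q, (∑ l, (cR e).b l z.2 P (ip p q) * dy l (fl k (ip p q)) z +
      (cR e).c z.2 P (ip p q) * fl k (ip p q) z) = (1 : Matrix (Fin N) (Fin N) ℝ) (i1 P) p *
      (∑ l, e.b l z.2 (i2 P) q * dy l (k p q) z + e.c z.2 (i2 P) q * k p q z) := by
    intro p q
    simp only [cR, mR_apply, fl]
    rw [i1_ip, i2_ip, mul_add, Finset.mul_sum]
    congr 1
    · exact Finset.sum_congr rfl fun l _ => by ring
    · ring
  simp only [h]
  rw [Finset.sum_comm]
  simp only [Matrix.one_apply, ite_mul, one_mul, zero_mul, Finset.sum_ite_eq,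
    Finset.mem_univ, if_true]
  rfl

end Vale.Agent.P088.R2.H808.J
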