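import Vale.Agent.P088.R2.H808.J.Dict

/-!
# P088, systems on pairs: LIM and ORTG give the orthogonality of `pf` to `k` (rows T2P, T2B)
-/

open MeasureTheory Set
open scoped ContDiff Matrix

noncomputable section

namespace Vale.Agent.P088.R2.H808.J

open Vale.Agent.P088.LR Vale.Agent.P088.HY

variable {n N : ℕ}

/-! ### Balls -/

theorem isOpen_Bs (ρ : ℝ) : IsOpen (Bs n ρ) := isOpen_lt continuous_sq continuous_const

theorem isCompact_cB (ρ : ℝ) (hρ : 0 ≤ ρ) : IsCompact {x : V n | HY.sq x ≤ ρ ^ 2} := by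
  refine Metric.isCompact_of_isClosed_isBounded (isClosed_le continuous_sq continuous_const) ?_
  refine (Metric.isBounded_closedBall (x := (0 : V n)) (r := ρ)).subset fun x hx => ?_
  rw [mem_closedBall_zero_iff, pi_norm_le_iff_of_nonneg hρ]
  intro j
  have h1 : x j ^ 2 ≤ HY.sq x := Finset.single_le_sum (f := fun j => x j ^ 2)
    (fun i _ => by positivity) (Finset.mem_univ j)
  rw [Real.norm_eq_abs]
  exact abs_le_of_sq_le_sq (h1.trans hx) hρ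

theorem Bs_sub_cB : Bs n (3 / 4) ⊆ {x : V n | HY.sq x ≤ (3 / 4 : ℝ) ^ 2} := fun _ hx =>
  le_of_lt (show HY.sq _ < (3 / 4 : ℝ) ^ 2 from hx)

theorem cB_sub_Bn : {x : V n | HY.sq x ≤ (3 / 4 : ℝ) ^ 2} ⊆ Bn n := fun x hx => by
  have : HY.sq x ≤ (3 / 4 : ℝ) ^ 2 := hx
  show HY.sq x < 1
  linarith

theorem Bs78_sub : Bs n (7 / 8) ⊆ Bn n := fun x hx => by
  have : HY.sq x < (7 / 8 : ℝ) ^ 2 := hx
  show HY.sq x < 1
  linarith

theorem int_of_cont {f : V n → ℝ} (hf : ContinuousOn f (Bn n)) : IntegrableOn f (Bs n (3 / 4)) :=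
  ((hf.mono cB_sub_Bn).integrableOn_compact (isCompact_cB _ (by norm_num))).mono_set Bs_sub_cB

theorem bdd_of_cont {f : V n → ℝ} (hf : Continuous f) :
    ∃ C, 0 ≤ C ∧ ∀ x ∈ Bs n (3 / 4), |f x| ≤ C := by
  obtain ⟨C, hC⟩ := (isCompact_cB (n := n) (3 / 4) (by norm_num)).exists_bound_of_continuousOn
    hf.continuousOn
  exact ⟨max C 0, le_max_right _ _, fun x hx => (hC x (Bs_sub_cB hx)).trans (le_max_left _ _)⟩

/-! ### Differences -/

theorem dx_sub {f g : VV n → ℝ} (hf : SU f) (hg : SU g) (i : Fin n) {z : VV n} (hz : z ∈ Un n) :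
    dx i (fun z => f z - g z) z = dx i f z - dx i g z := dd_sub (hf.d hz) (hg.d hz)

theorem dy_sub {f g : VV n → ℝ} (hf : SU f) (hg : SU g) (i : Fin n) {z : VV n} (hz : z ∈ Un n) :
    dy i (fun z => f z - g z) z = dy i f z - dy i g z := dd_sub (hf.d hz) (hg.d hz)

theorem dxx_sub {f g : VV n → ℝ} (hf : SU f) (hg : SU g) (i j : Fin n) {z : VV n}
    (hz : z ∈ Un n) :
    dx i (dx j (fun z => f z - g z)) z = dx i (dx j f) z - dx i (dx j g) z := by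
  have h1 : dx i (dx j (fun z => f z - g z)) z = dx i (fun z => dx j f z - dx j g z) z :=
    dd_congrOn isOpen_Un (fun z hz => dx_sub hf hg j hz) hz
  rw [h1, dx_sub (hf.dx j) (hg.dx j) i hz]

theorem dyy_sub {f g : VV n → ℝ} (hf : SU f) (hg : SU g) (i j : Fin n) {z : VV n}
    (hz : z ∈ Un n) :
    dy i (dy j (fun z => f z - g z)) z = dy i (dy j f) z - dy i (dy j g) z := by
  have h1 : dy i (dy j (fun z => f z - g z)) z = dy i (fun z => dy j f z - dy j g z) z :=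
    dd_congrOn isOpen_Un (fun z hz => dy_sub hf hg j hz) hz
  rw [h1, dy_sub (hf.dy j) (hg.dy j) i hz]

theorem LxG_sub {m : ℕ} (s : MF n) (e : Co n m) {f g : Fin m → VV n → ℝ} (hf : ∀ p, SU (f p))
    (hg : ∀ p, SU (g p)) (p : Fin m) {z : VV n} (hz : z ∈ Un n) :
    LxG s e (fun p z => f p z - g p z) p z = LxG s e f p z - LxG s e g p z := by
  unfold LxG Lx
  simp only [dxx_sub (hf _) (hg _) _ _ hz, dx_sub (hf _) (hg _) _ hz, mul_sub,
    Finset.sum_sub_distrib, Finset.sum_add_distrib]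
  ring

theorem LyG_sub {m : ℕ} (s : MF n) (e : Co n m) {f g : Fin m → VV n → ℝ} (hf : ∀ p, SU (f p))
    (hg : ∀ p, SU (g p)) (p : Fin m) {z : VV n} (hz : z ∈ Un n) :
    LyG s e (fun p z => f p z - g p z) p z = LyG s e f p z - LyG s e g p z := by
  unfold LyG Ly
  simp only [dyy_sub (hf _) (hg _) _ _ hz, dy_sub (hf _) (hg _) _ hz, mul_sub,
    Finset.sum_sub_distrib, Finset.sum_add_distrib]
  ring

/-! ### The pairing on the diagonal -/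

/-- The pairing `pf` on the diagonal. -/
theorem dg_pf (s : MF n) (A₁ A₂ : Cn' n N) (Q₁ Q₂ : Mx n N) (k : Fin N → Fin N → VV n → ℝ)
    (x : V n) : (pf s A₁ A₂ Q₁ Q₂).dg k x = ∑ p, ∑ q,
      ((∑ i, (pf s A₁ A₂ Q₁ Q₂).a i x p q * dx i (k p q) (x, x)) +
      (∑ i, (pf s A₁ A₂ Q₁ Q₂).b i x p q * dy i (k p q) (x, x)) +
      (pf s A₁ A₂ Q₁ Q₂).c x p q * k p q (x, x)) := by
  unfold Pf.dg
  simp only [pf, Matrix.zero_apply, zero_mul, Finset.sum_const_zero, zero_add]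

theorem dg_sub (s : MF n) (A₁ A₂ : Cn' n N) (Q₁ Q₂ : Mx n N) {k w : Fin N → Fin N → VV n → ℝ}
    (hk : ∀ p q, SU (k p q)) (hw : ∀ p q, SU (w p q)) {x : V n} (hx : x ∈ Bn n) :
    (pf s A₁ A₂ Q₁ Q₂).dg (fun p q z => k p q z - w p q z) x =
      (pf s A₁ A₂ Q₁ Q₂).dg k x - (pf s A₁ A₂ Q₁ Q₂).dg w x := by
  have hz : ((x, x) : VV n) ∈ Un n := ⟨hx, hx⟩
  rw [dg_pf, dg_pf, dg_pf]
  simp only [dx_sub (hk _ _) (hw _ _) _ hz, dy_sub (hk _ _) (hw _ _) _ hz, mul_sub,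
    Finset.sum_sub_distrib, Finset.sum_add_distrib]
  ring

theorem cont_diag {f : VV n → ℝ} (hf : SU f) : ContinuousOn (fun x : V n => f (x, x)) (Bn n) :=
  (ContDiffOn.continuousOn hf).comp (by fun_prop) fun x hx => ⟨hx, hx⟩

theorem sm_pf {s : MF n} (hs : SmM s) {A₁ A₂ : Cn' n N} {Q₁ Q₂ : Mx n N}
    (hA₁ : ∀ l p q, ContDiff ℝ ∞ (fun x => A₁ l x p q))
    (hA₂ : ∀ l p q, ContDiff ℝ ∞ (fun x => A₂ l x p q))
    (hQ₁ : ∀ p q, ContDiff ℝ ∞ (fun x => Q₁ x p q))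
    (hQ₂ : ∀ p q, ContDiff ℝ ∞ (fun x => Q₂ x p q)) :
    (∀ i p q, ContDiff ℝ ∞ (fun x => (pf s A₁ A₂ Q₁ Q₂).a i x p q)) ∧
    (∀ i p q, ContDiff ℝ ∞ (fun x => (pf s A₁ A₂ Q₁ Q₂).b i x p q)) ∧
    ∀ p q, ContDiff ℝ ∞ (fun x => (pf s A₁ A₂ Q₁ Q₂).c x p q) := by
  refine ⟨fun i p q => ?_, fun i p q => ?_, fun p q => ?_⟩
  · simp only [pf, Matrix.of_apply]
    exact ContDiff.sum fun j _ => (hs i j).mul ((hA₁ j p q).sub (hA₂ j p q))
  · simp only [pf, Matrix.of_apply]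
    exact ContDiff.sum fun j _ => (hs j i).mul ((hA₁ j q p).sub (hA₂ j q p))
  · simp only [pf, Matrix.of_apply]
    exact (ContDiff.sum fun i _ => ContDiff.sum fun j _ => (hs i j).mul (ContDiff.sum fun r _ =>
      ((hA₁ i r p).mul (hA₁ j r q)).sub ((hA₂ i r p).mul (hA₂ j r q)))).add
      ((hQ₁ q p).sub (hQ₂ q p))

theorem ok_pf {s : MF n} (hs : SmM s) {A₁ A₂ : Cn' n N} {Q₁ Q₂ : Mx n N}
    (hA₁ : ∀ l p q, ContDiff ℝ ∞ (fun x => A₁ l x p q))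
    (hA₂ : ∀ l p q, ContDiff ℝ ∞ (fun x => A₂ l x p q))
    (hQ₁ : ∀ p q, ContDiff ℝ ∞ (fun x => Q₁ x p q))
    (hQ₂ : ∀ p q, ContDiff ℝ ∞ (fun x => Q₂ x p q))
    (hA : ∀ x ∉ Bs n (3 / 4), ∀ i, A₂ i x = A₁ i x) (hQ : ∀ x ∉ Bs n (3 / 4), Q₂ x = Q₁ x) :
    PfOk (pf s A₁ A₂ Q₁ Q₂) := by
  obtain ⟨h1, h2, h3⟩ := sm_pf hs hA₁ hA₂ hQ₁ hQ₂
  refine ⟨fun i j p q => ?_, h1, h2, h3, fun x hx => ⟨fun i j => rfl, fun i => ?_, fun i => ?_, ?_⟩⟩
  · simp only [pf, Matrix.zero_apply]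
    exact contDiff_const
  · ext p q
    simp only [pf, Matrix.of_apply, hA x hx, sub_self, mul_zero, Finset.sum_const_zero,
      Matrix.zero_apply]
  · ext p q
    simp only [pf, Matrix.of_apply, hA x hx, sub_self, mul_zero, Finset.sum_const_zero,
      Matrix.zero_apply]
  · ext p q
    simp only [pf, Matrix.of_apply, hA x hx, hQ x hx, sub_self, mul_zero, Finset.sum_const_zero,
      Matrix.zero_apply, add_zero]

theorem cont_dg {s : MF n} (hs : SmM s) {A₁ A₂ : Cn' n N} {Q₁ Q₂ : Mx n N}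
    (hA₁ : ∀ l p q, ContDiff ℝ ∞ (fun x => A₁ l x p q))
    (hA₂ : ∀ l p q, ContDiff ℝ ∞ (fun x => A₂ l x p q))
    (hQ₁ : ∀ p q, ContDiff ℝ ∞ (fun x => Q₁ x p q))
    (hQ₂ : ∀ p q, ContDiff ℝ ∞ (fun x => Q₂ x p q)) {k : Fin N → Fin N → VV n → ℝ}
    (hk : ∀ p q, SU (k p q)) :
    ContinuousOn (fun x => (pf s A₁ A₂ Q₁ Q₂).dg k x) (Bn n) := by
  obtain ⟨h1, h2, h3⟩ := sm_pf hs hA₁ hA₂ hQ₁ hQ₂
  simp only [dg_pf]
  refine continuousOn_finsetSum _ fun p _ => continuousOn_finsetSum _ fun q _ => ?_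
  refine ContinuousOn.add (ContinuousOn.add ?_ ?_) ?_
  · exact continuousOn_finsetSum _ fun i _ => (h1 i p q).continuous.continuousOn.mul
      (cont_diag ((hk p q).dx i))
  · exact continuousOn_finsetSum _ fun i _ => (h2 i p q).continuous.continuousOn.mul
      (cont_diag ((hk p q).dy i))
  · exact (h3 p q).continuous.continuousOn.mul (cont_diag (hk p q))

/-- `∫ |w|` on the diagonal. -/
def J0 (w : Fin (N * N) → VV n → ℝ) (x : V n) : ℝ := ∑ p, |w p (x, x)|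

/-- `∫ |∇w|` on the diagonal. -/
def J1 (w : Fin (N * N) → VV n → ℝ) (x : V n) : ℝ :=
  ∑ p, ∑ i, (|dx i (w p) (x, x)| + |dy i (w p) (x, x)|)

theorem J0_nonneg (w : Fin (N * N) → VV n → ℝ) (x : V n) : 0 ≤ J0 w x :=
  Finset.sum_nonneg fun _ _ => abs_nonneg _

theorem J1_nonneg (w : Fin (N * N) → VV n → ℝ) (x : V n) : 0 ≤ J1 w x :=
  Finset.sum_nonneg fun _ _ => Finset.sum_nonneg fun _ _ => by positivity

theorem J0_eq (w : Fin (N * N) → VV n → ℝ) (x : V n) :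
    J0 w x = ∑ p, ∑ q, |uf w p q (x, x)| := sum_ip _

theorem J1_eq (w : Fin (N * N) → VV n → ℝ) (x : V n) :
    J1 w x = ∑ p, ∑ q, ∑ i, (|dx i (uf w p q) (x, x)| + |dy i (uf w p q) (x, x)|) := sum_ip _

theorem cont_J0 {w : Fin (N * N) → VV n → ℝ} (hw : ∀ p, SU (w p)) :
    ContinuousOn (J0 w) (Bn n) :=
  continuousOn_finsetSum _ fun p _ => (cont_diag (hw p)).abs

theorem cont_J1 {w : Fin (N * N) → VV n → ℝ} (hw : ∀ p, SU (w p)) :
    ContinuousOn (J1 w) (Bn n) :=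
  continuousOn_finsetSum _ fun p _ => continuousOn_finsetSum _ fun i _ =>
    (cont_diag ((hw p).dx i)).abs.add (cont_diag ((hw p).dy i)).abs

/-- A common bound of finitely many functions on the ball. -/
theorem bdd_fam {ι : Type*} [Fintype ι] {f : ι → V n → ℝ} (hf : ∀ i, Continuous (f i)) :
    ∃ C, 0 ≤ C ∧ ∀ i, ∀ x ∈ Bs n (3 / 4), |f i x| ≤ C := by
  choose C hC0 hC using fun i => bdd_of_cont (hf i)
  exact ⟨∑ i, C i, Finset.sum_nonneg fun i _ => hC0 i, fun i x hx => (hC i x hx).trans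
    (Finset.single_le_sum (f := C) (fun i _ => hC0 i) (Finset.mem_univ i))⟩

/-- The pairing is bounded by the values and first derivatives on the diagonal. -/
theorem dg_bdd {s : MF n} (hs : SmM s) {A₁ A₂ : Cn' n N} {Q₁ Q₂ : Mx n N}
    (hA₁ : ∀ l p q, ContDiff ℝ ∞ (fun x => A₁ l x p q))
    (hA₂ : ∀ l p q, ContDiff ℝ ∞ (fun x => A₂ l x p q))
    (hQ₁ : ∀ p q, ContDiff ℝ ∞ (fun x => Q₁ x p q))
    (hQ₂ : ∀ p q, ContDiff ℝ ∞ (fun x => Q₂ x p q)) :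
    ∃ C, 0 ≤ C ∧ ∀ w : Fin (N * N) → VV n → ℝ, ∀ x ∈ Bs n (3 / 4),
      |(pf s A₁ A₂ Q₁ Q₂).dg (uf w) x| ≤ C * (J0 w x + J1 w x) ∧
      ((∀ i x, A₁ i x = A₂ i x) → |(pf s A₁ A₂ Q₁ Q₂).dg (uf w) x| ≤ C * J0 w x) := by
  obtain ⟨h1, h2, h3⟩ := sm_pf hs hA₁ hA₂ hQ₁ hQ₂
  obtain ⟨Ca, Ca0, hCa⟩ := bdd_fam (n := n) (ι := Fin n × Fin N × Fin N)
    (f := fun I x => (pf s A₁ A₂ Q₁ Q₂).a I.1 x I.2.1 I.2.2) fun I => (h1 _ _ _).continuous
  obtain ⟨Cb, Cb0, hCb⟩ := bdd_fam (n := n) (ι := Fin n × Fin N × Fin N)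
    (f := fun I x => (pf s A₁ A₂ Q₁ Q₂).b I.1 x I.2.1 I.2.2) fun I => (h2 _ _ _).continuous
  obtain ⟨Cc, Cc0, hCc⟩ := bdd_fam (n := n) (ι := Fin N × Fin N)
    (f := fun I x => (pf s A₁ A₂ Q₁ Q₂).c x I.1 I.2) fun I => (h3 _ _).continuous
  refine ⟨Ca + Cb + Cc, by positivity, fun w x hx => ?_⟩
  have ha : ∀ p q, |∑ i, (pf s A₁ A₂ Q₁ Q₂).a i x p q * dx i (uf w p q) (x, x)| ≤
      (Ca + Cb + Cc) * ∑ i, |dx i (uf w p q) (x, x)| := by
    intro p q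
    refine (Finset.abs_sum_le_sum_abs _ _).trans ?_
    rw [Finset.mul_sum]
    refine Finset.sum_le_sum fun i _ => ?_
    rw [abs_mul]
    refine mul_le_mul_of_nonneg_right ?_ (abs_nonneg _)
    have := hCa (i, p, q) x hx
    simp only at this
    linarith
  have hb : ∀ p q, |∑ i, (pf s A₁ A₂ Q₁ Q₂).b i x p q * dy i (uf w p q) (x, x)| ≤
      (Ca + Cb + Cc) * ∑ i, |dy i (uf w p q) (x, x)| := by
    intro p q
    refine (Finset.abs_sum_le_sum_abs _ _).trans ?_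
    rw [Finset.mul_sum]
    refine Finset.sum_le_sum fun i _ => ?_
    rw [abs_mul]
    refine mul_le_mul_of_nonneg_right ?_ (abs_nonneg _)
    have := hCb (i, p, q) x hx
    simp only at this
    linarith
  have hc : ∀ p q, |(pf s A₁ A₂ Q₁ Q₂).c x p q * uf w p q (x, x)| ≤
      (Ca + Cb + Cc) * |uf w p q (x, x)| := by
    intro p q
    rw [abs_mul]
    refine mul_le_mul_of_nonneg_right ?_ (abs_nonneg _)
    have := hCc (p, q) x hx
    simp only at this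
    linarith
  refine ⟨?_, fun hAA => ?_⟩
  · rw [dg_pf, J0_eq, J1_eq]
    refine (Finset.abs_sum_le_sum_abs _ _).trans ?_
    rw [← Finset.sum_add_distrib, Finset.mul_sum]
    refine Finset.sum_le_sum fun p _ => ?_
    refine (Finset.abs_sum_le_sum_abs _ _).trans ?_
    rw [← Finset.sum_add_distrib, Finset.mul_sum]
    refine Finset.sum_le_sum fun q _ => ?_
    rw [Finset.sum_add_distrib]
    refine (abs_add_le _ _).trans ?_
    have h4 := abs_add_le (∑ i, (pf s A₁ A₂ Q₁ Q₂).a i x p q * dx i (uf w p q) (x, x))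
      (∑ i, (pf s A₁ A₂ Q₁ Q₂).b i x p q * dy i (uf w p q) (x, x))
    have h5 := ha p q
    have h6 := hb p q
    have h7 := hc p q
    nlinarith
  · rw [dg_pf, J0_eq]
    refine (Finset.abs_sum_le_sum_abs _ _).trans ?_
    rw [Finset.mul_sum]
    refine Finset.sum_le_sum fun p _ => ?_
    refine (Finset.abs_sum_le_sum_abs _ _).trans ?_
    rw [Finset.mul_sum]
    refine Finset.sum_le_sum fun q _ => ?_
    have e1 : ∀ i, (pf s A₁ A₂ Q₁ Q₂).a i x p q = 0 := fun i => by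
      simp only [pf, Matrix.of_apply, hAA, sub_self, mul_zero, Finset.sum_const_zero]
    have e2 : ∀ i, (pf s A₁ A₂ Q₁ Q₂).b i x p q = 0 := fun i => by
      simp only [pf, Matrix.of_apply, hAA, sub_self, mul_zero, Finset.sum_const_zero]
    simp only [e1, e2, zero_mul, Finset.sum_const_zero, zero_add]
    exact hc p q

theorem ts_mono {k l : ℕ} {a b : ℝ} {s : MF n} (h : TS n k a s) (hl : l ≤ k) (hab : a ≤ b) :
    TS n l b s := ⟨h.sm, h.sy, fun i j => cl_le (h.cl i j) hl hab, h.dv⟩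

theorem coOk_mono {m k l : ℕ} {a b a' b' : ℝ} {e : Co n m} (h : CoOk k a b e) (hl : l ≤ k)
    (ha : a ≤ a') (hb : b ≤ b') : CoOk l a' b' e :=
  ⟨h.sb, h.sc, fun i p q => cl_le (h.bb i p q) hl ha, fun p q => cl_le (h.bc p q) hl hb⟩

theorem aOk_mono {k l : ℕ} {a b : ℝ} {A : Cn' n N} (h : AOk k a A) (hl : l ≤ k) (hab : a ≤ b) :
    AOk l b A := ⟨h.sm, h.sk, fun i p q => cl_le (h.bd i p q) hl hab⟩

theorem qOk_mono {k l : ℕ} {a b : ℝ} {Q : Mx n N} (h : QOk k a Q) (hl : l ≤ k) (hab : a ≤ b) :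
    QOk l b Q := ⟨h.sm, h.sy, fun p q => cl_le (h.bd p q) hl hab⟩

/-- The pairing `pf` is orthogonal to every smooth `k` whose two equations hold on the
diagonal. -/
theorem main (hL : RowLIM) (hO : RowORTG) (n N : ℕ) (hn : 3 ≤ n) : ∃ (K : ℕ) (ε : ℝ), 0 < ε ∧
    ε ≤ 1 / 2 ∧ ∀ M : ℝ, 0 < M → ∀ (s : MF n) (A₁ A₂ : Cn' n N) (Q₁ Q₂ : Mx n N), TS n K ε s →
    AOk K ε A₁ → AOk K ε A₂ → QOk K M Q₁ → QOk K M Q₂ →
    (∀ x ∉ Bs n (3 / 4), ∀ i, A₂ i x = A₁ i x) → (∀ x ∉ Bs n (3 / 4), Q₂ x = Q₁ x) →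
    IdA s A₁ A₂ Q₁ Q₂ → ∀ k : Fin N → Fin N → VV n → ℝ, (∀ p q, ContDiff ℝ ∞ (k p q)) →
    ((∀ i x, A₁ i x = A₂ i x) ∨ ∀ x ∈ Bn n, ∀ p q,
      LxG s (co s A₁ Q₁) (fun p' => k p' q) p (x, x) = 0 ∧
      LyG s (co s A₂ Q₂) (fun q' => k p q') q (x, x) = 0) →
    ∫ x in Bs n (3 / 4), (pf s A₁ A₂ Q₁ Q₂).dg k x = 0 := by
  obtain ⟨K₁, ε₁, hε₁, hL⟩ := hL n (N * N) hn
  obtain ⟨K₂, ε₂, hε₂, hO⟩ := hO n N N
  set k₀ := max K₁ K₂ with hk₀
  set c₀ : ℝ := n * (2 * (2 ^ k₀ * 2)) + 1 with hc₀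
  have hc₀p : 0 < c₀ := by positivity
  set ε : ℝ := min (1 / 2) (min ε₂ (min ε₁ (ε₁ / c₀))) with hε
  have hεp : 0 < ε := by
    refine lt_min (by norm_num) (lt_min hε₂ (lt_min hε₁ (by positivity)))
  have e1 : ε ≤ 1 / 2 := min_le_left _ _
  have e2 : ε ≤ ε₂ := (min_le_right _ _).trans (min_le_left _ _)
  have e3 : ε ≤ ε₁ := (min_le_right _ _).trans ((min_le_right _ _).trans (min_le_left _ _))
  have e4 : ε ≤ ε₁ / c₀ := (min_le_right _ _).trans ((min_le_right _ _).trans (min_le_right _ _))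
  have e5 : n * (2 * (2 ^ k₀ * (2 * ε))) ≤ ε₁ := by
    have h1 : c₀ * ε ≤ ε₁ := by
      calc c₀ * ε ≤ c₀ * (ε₁ / c₀) := mul_le_mul_of_nonneg_left e4 hc₀p.le
        _ = ε₁ := by field_simp
    have h2 : n * (2 * (2 ^ k₀ * (2 * ε))) = (c₀ - 1) * ε := by rw [hc₀]; ring
    rw [h2]
    nlinarith
  refine ⟨k₀ + 1, ε, hεp, e1, fun M hM s A₁ A₂ Q₁ Q₂ hs hA₁ hA₂ hQ₁ hQ₂ hA hQ hId k hk hcase => ?_⟩
  have hcl : ∀ i j, Cl k₀ ε (fun x => s x i j - (1 : Matrix (Fin n) (Fin n) ℝ) i j) :=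
    fun i j => cl_le (hs.cl i j) (Nat.le_succ _) le_rfl
  set M₁ : ℝ := n * (n * (2 ^ k₀ * (2 * (1 + N * (2 ^ k₀ * (1 * 1)))))) + M with hM₁
  have hM₁p : 0 < M₁ := by positivity
  have h₁ : CoOk k₀ ε₁ M₁ (co s A₁ Q₁) := coOk_mono (co_ok (e1.trans (by norm_num)) hs.sm hcl hA₁
    (qOk_mono hQ₁ (Nat.le_succ _) le_rfl)) le_rfl e5 le_rfl
  have h₂ : CoOk k₀ ε₁ M₁ (co s A₂ Q₂) := coOk_mono (co_ok (e1.trans (by norm_num)) hs.sm hcl hA₂
    (qOk_mono hQ₂ (Nat.le_succ _) le_rfl)) le_rfl e5 le_rfl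
  have hs1 : TS n K₁ ε₁ s := ts_mono hs ((le_max_left _ _).trans (Nat.le_succ _)) e3
  have hs2 : TS n K₂ ε₂ s := ts_mono hs ((le_max_right _ _).trans (Nat.le_succ _)) e2
  have hkS : ∀ p q, SU (k p q) := fun p q => (hk p q).contDiffOn
  obtain ⟨C, hC0, hC⟩ := dg_bdd hs.sm hA₁.sm hA₂.sm hQ₁.sm hQ₂.sm
  -- the bound for every `δ`
  have key : ∀ δ : ℝ, 0 < δ → |∫ x in Bs n (3 / 4), (pf s A₁ A₂ Q₁ Q₂).dg k x| ≤
      C * (δ + δ) := by
    intro δ hδ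
    obtain ⟨w, hw, hwe, hw0, hw1⟩ := hL M₁ hM₁p s (cL (co s A₁ Q₁)) (cR (co s A₂ Q₂)) hs1
      (coOk_mono (cL_ok h₁) (le_max_left _ _) le_rfl le_rfl)
      (coOk_mono (cR_ok h₂) (le_max_left _ _) le_rfl le_rfl) (com_LR _ _) (fl k)
      (fun P => hk _ _) δ hδ
    have hwS : ∀ p q, SU (uf w p q) := fun p q => hw _
    have hwx : ∀ z ∈ Un n, ∀ p q, LxG s (co s A₁ Q₁) (fun p' => uf w p' q) p z =
        LxG s (co s A₁ Q₁) (fun p' => k p' q) p z := by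
      intro z hz p q
      have h := (hwe z hz (ip p q)).1
      rw [← fl_uf w, Lx_fl, Lx_fl, i1_ip, i2_ip] at h
      exact h
    have hwy : ∀ z ∈ Un n, ∀ p q, LyG s (co s A₂ Q₂) (fun q' => uf w p q') q z =
        LyG s (co s A₂ Q₂) (fun q' => k p q') q z := by
      intro z hz p q
      have h := (hwe z hz (ip p q)).2
      rw [← fl_uf w, Ly_fl, Ly_fl, i1_ip, i2_ip] at h
      exact h
    have hU : Bs n (7 / 8) ×ˢ Bs n (7 / 8) ⊆ Un n := prod_mono Bs78_sub Bs78_sub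
    have h0 := hO (M₁ + ε₁) (by positivity) s s (co s A₁ Q₁) (co s A₂ Q₂) hs2.sm hs2.sm
      hs2.cl hs2.cl
      (coOk_mono h₁ (le_max_right _ _) (by linarith) (by linarith))
      (coOk_mono h₂ (le_max_right _ _) (by linarith) (by linarith))
      (pf s A₁ A₂ Q₁ Q₂) (ok_pf hs.sm hA₁.sm hA₂.sm hQ₁.sm hQ₂.sm hA hQ)
      (idP_of_idA hs.sm hs.sy hs.dv hA₁.sm hA₂.sm hId)
      (fun p q z => k p q z - uf w p q z) (fun p q => ((hkS p q).sub (hwS p q)).mono hU)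
      (fun z hz p q => by
        rw [LxG_sub s _ (fun p' => hkS p' q) (fun p' => hwS p' q) p (hU hz), hwx z (hU hz) p q,
          sub_self])
      (fun z hz p q => by
        rw [LyG_sub s _ (fun q' => hkS p q') (fun q' => hwS p q') q (hU hz), hwy z (hU hz) p q,
          sub_self])
    have h1 : ∫ x in Bs n (3 / 4), (pf s A₁ A₂ Q₁ Q₂).dg (fun p q z => k p q z - uf w p q z) x =
        ∫ x in Bs n (3 / 4), ((pf s A₁ A₂ Q₁ Q₂).dg k x - (pf s A₁ A₂ Q₁ Q₂).dg (uf w) x) :=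
      setIntegral_congr_fun (isOpen_Bs _).measurableSet fun x hx =>
        dg_sub s A₁ A₂ Q₁ Q₂ hkS hwS (cB_sub_Bn (Bs_sub_cB hx))
    have ik := int_of_cont (cont_dg hs.sm hA₁.sm hA₂.sm hQ₁.sm hQ₂.sm hkS)
    have iw := int_of_cont (cont_dg hs.sm hA₁.sm hA₂.sm hQ₁.sm hQ₂.sm hwS)
    rw [h1, integral_sub ik iw, sub_eq_zero] at h0
    rw [h0]
    have j0 := int_of_cont (cont_J0 hw)
    have j1 := int_of_cont (cont_J1 hw)
    rcases hcase with hAA | hdiag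
    · calc |∫ x in Bs n (3 / 4), (pf s A₁ A₂ Q₁ Q₂).dg (uf w) x|
          ≤ ∫ x in Bs n (3 / 4), |(pf s A₁ A₂ Q₁ Q₂).dg (uf w) x| := abs_integral_le_integral_abs
        _ ≤ ∫ x in Bs n (3 / 4), C * J0 w x :=
            setIntegral_mono_on iw.abs (j0.const_mul C) (isOpen_Bs _).measurableSet
              fun x hx => (hC w x hx).2 hAA
        _ = C * ∫ x in Bs n (3 / 4), J0 w x := integral_const_mul _ _
        _ ≤ C * (δ + δ) := mul_le_mul_of_nonneg_left (hw0.trans (by linarith)) hC0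
    · have hw1' := hw1 (fun x hx P => by
        rw [Lx_fl, Ly_fl]
        exact hdiag x hx (i1 P) (i2 P))
      calc |∫ x in Bs n (3 / 4), (pf s A₁ A₂ Q₁ Q₂).dg (uf w) x|
          ≤ ∫ x in Bs n (3 / 4), |(pf s A₁ A₂ Q₁ Q₂).dg (uf w) x| := abs_integral_le_integral_abs
        _ ≤ ∫ x in Bs n (3 / 4), C * (J0 w x + J1 w x) :=
            setIntegral_mono_on iw.abs ((j0.add j1).const_mul C) (isOpen_Bs _).measurableSet
              fun x hx => (hC w x hx).1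
        _ = C * ((∫ x in Bs n (3 / 4), J0 w x) + ∫ x in Bs n (3 / 4), J1 w x) := by
            rw [integral_const_mul, integral_add j0 j1]
        _ ≤ C * (δ + δ) := mul_le_mul_of_nonneg_left (add_le_add hw0 hw1') hC0
  by_contra hne
  have hpos : 0 < |∫ x in Bs n (3 / 4), (pf s A₁ A₂ Q₁ Q₂).dg k x| := abs_pos.2 hne
  set I := |∫ x in Bs n (3 / 4), (pf s A₁ A₂ Q₁ Q₂).dg k x| with hI
  have h := key (I / (4 * (C + 1))) (by positivity)
  have h2 : C * (I / (4 * (C + 1)) + I / (4 * (C + 1))) = I * (C / (C + 1)) / 2 := by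
    field_simp
    ring
  have h3 : C / (C + 1) ≤ 1 := by
    rw [div_le_one (by positivity)]
    linarith
  rw [h2] at h
  nlinarith

end Vale.Agent.P088.R2.H808.J
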