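import Vale.Agent.P088.R2.H808.J.Main

/-!
# P088, systems on pairs: row T2B, the potentials are equal if the connections are
-/

open MeasureTheory Set
open scoped ContDiff Matrix

noncomputable section

namespace Vale.Agent.P088.R2.H808.J

open Vale.Agent.P088.LR Vale.Agent.P088.HY

variable {n N : ℕ}

/-- Row T2B. -/
theorem t2B (hL : RowLIM) (hO : RowORTG) : RowT2B := by
  intro n N hn
  obtain ⟨K, ε, hε, -, h⟩ := main hL hO n N hn
  refine ⟨K, ε, hε, fun M hM s A Q₁ Q₂ hs hA hQ₁ hQ₂ hQ hId => ?_⟩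
  have h0 := h M hM s A A Q₁ Q₂ hs hA hA hQ₁ hQ₂ (fun _ _ _ => rfl) hQ hId
    (fun p q z => Q₁ z.1 q p - Q₂ z.1 q p)
    (fun p q => ((hQ₁.sm q p).sub (hQ₂.sm q p)).comp contDiff_fst) (Or.inl fun _ _ => rfl)
  have h1 : ∀ x, (pf s A A Q₁ Q₂).dg (fun p q z => Q₁ z.1 q p - Q₂ z.1 q p) x =
      ∑ p, ∑ q, (Q₁ x q p - Q₂ x q p) ^ 2 := by
    intro x
    rw [dg_pf]
    refine Finset.sum_congr rfl fun p _ => Finset.sum_congr rfl fun q _ => ?_
    simp only [pf, Matrix.of_apply, sub_self, mul_zero, Finset.sum_const_zero, zero_mul, zero_add]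
    ring
  simp only [h1] at h0
  have hc : Continuous fun x => ∑ p, ∑ q, (Q₁ x q p - Q₂ x q p) ^ 2 :=
    continuous_finsetSum _ fun p _ => continuous_finsetSum _ fun q _ =>
      ((hQ₁.sm q p).continuous.sub (hQ₂.sm q p).continuous).pow 2
  have hnn : ∀ x, 0 ≤ ∑ p, ∑ q, (Q₁ x q p - Q₂ x q p) ^ 2 := fun x =>
    Finset.sum_nonneg fun _ _ => Finset.sum_nonneg fun _ _ => by positivity
  have h2 : ∀ x ∈ Bs n (3 / 4), ∑ p, ∑ q, (Q₁ x q p - Q₂ x q p) ^ 2 = 0 := by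
    have h3 : (fun x => ∑ p, ∑ q, (Q₁ x q p - Q₂ x q p) ^ 2) =ᵐ[volume.restrict (Bs n (3 / 4))] 0 :=
      (integral_eq_zero_iff_of_nonneg (fun x => hnn x) (int_of_cont hc.continuousOn)).1 h0
    have h4 := Measure.eqOn_open_of_ae_eq h3 (isOpen_Bs _) hc.continuousOn continuousOn_const
    exact fun x hx => h4 hx
  intro x
  by_cases hx : x ∈ Bs n (3 / 4)
  · ext p q
    have h3 := h2 x hx
    have h4 : (Q₁ x p q - Q₂ x p q) ^ 2 ≤ 0 := by
      rw [← h3]
      calc (Q₁ x p q - Q₂ x p q) ^ 2 ≤ ∑ q', (Q₁ x q' q - Q₂ x q' q) ^ 2 :=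
            Finset.single_le_sum (f := fun q' => (Q₁ x q' q - Q₂ x q' q) ^ 2)
              (fun _ _ => by positivity) (Finset.mem_univ p)
        _ ≤ _ := Finset.single_le_sum (f := fun p => ∑ q', (Q₁ x q' p - Q₂ x q' p) ^ 2)
              (fun _ _ => Finset.sum_nonneg fun _ _ => by positivity) (Finset.mem_univ q)
    have h5 : Q₁ x p q - Q₂ x p q = 0 := by
      have := sq_nonneg (Q₁ x p q - Q₂ x p q)
      exact pow_eq_zero_iff (n := 2) (by norm_num) |>.1 (le_antisymm h4 this)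
    linarith
  · exact (hQ x hx).symm

end Vale.Agent.P088.R2.H808.J

namespace Vale.Agent.P088.HY

/-- Row T2B. -/
theorem rowT2B (hL : RowLIM) (hO : RowORTG) : RowT2B := Vale.Agent.P088.R2.H808.J.t2B hL hO

end Vale.Agent.P088.HY
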