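import Vale.Agent.P088.R2.H808.J.Main
import Vale.Agent.P088.R2.H808.J.Diag

/-!
# P088, systems on pairs: row T2P, `A₁ - A₂` is orthogonal to the divergence free forms
-/

open MeasureTheory Set
open scoped ContDiff Matrix

noncomputable section

namespace Vale.Agent.P088.R2.H808.J

open Vale.Agent.P088.LR Vale.Agent.P088.HY

variable {n N : ℕ}

/-- The trace of `s`. -/
def trs (s : MF n) (x : V n) : ℝ := ∑ i, s x i i

/-- `∑ (b_l λ_l)`, first connection. -/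
def X1 (s : MF n) (A₁ lm : Cn' n N) (p q : Fin N) (x : V n) : ℝ :=
  ∑ i, ∑ j, s x i j * ∑ r, A₁ i x p r * lm j x r q

/-- `∑ (λ_l b_l)`, second connection. -/
def X2 (s : MF n) (A₂ lm : Cn' n N) (p q : Fin N) (x : V n) : ℝ :=
  ∑ i, ∑ j, s x i j * ∑ r, lm j x p r * A₂ i x r q

/-- The coefficient of `|q|² / 2`. -/
def zet (s : MF n) (A₁ A₂ lm : Cn' n N) (p q : Fin N) (x : V n) : ℝ :=
  -(X1 s A₁ lm p q x + X2 s A₂ lm p q x) / trs s x

theorem trs_pos (hn : 3 ≤ n) {k : ℕ} {ε : ℝ} (hε : ε ≤ 1 / 2) {s : MF n} (hs : TS n k ε s)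
    (x : V n) : 0 < trs s x := by
  have h : ∀ i, 1 / 2 ≤ s x i i := by
    intro i
    have h1 := hs.cl i i 0 (Nat.zero_le _) x
    rw [norm_iteratedFDeriv_zero, Real.norm_eq_abs, Matrix.one_apply_eq] at h1
    have h2 := (abs_le.1 (h1.trans hε)).1
    linarith
  have h2 : ∑ i : Fin n, (1 / 2 : ℝ) ≤ trs s x := Finset.sum_le_sum fun i _ => h i
  have h3 : ∑ i : Fin n, (1 / 2 : ℝ) = n * (1 / 2) := by simp
  have h4 : (3 : ℝ) ≤ n := by exact_mod_cast hn
  rw [h3] at h2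
  linarith

theorem sm_trs {s : MF n} (hs : SmM s) : ContDiff ℝ ∞ (trs s) := ContDiff.sum fun i _ => hs i i

theorem sm_X1 {s : MF n} (hs : SmM s) {A₁ lm : Cn' n N}
    (hA : ∀ l p q, ContDiff ℝ ∞ (fun x => A₁ l x p q))
    (hlm : ∀ l p q, ContDiff ℝ ∞ (fun x => lm l x p q)) (p q : Fin N) :
    ContDiff ℝ ∞ (X1 s A₁ lm p q) :=
  ContDiff.sum fun i _ => ContDiff.sum fun j _ => (hs i j).mul (ContDiff.sum fun r _ =>
    (hA i p r).mul (hlm j r q))

theorem sm_X2 {s : MF n} (hs : SmM s) {A₂ lm : Cn' n N}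
    (hA : ∀ l p q, ContDiff ℝ ∞ (fun x => A₂ l x p q))
    (hlm : ∀ l p q, ContDiff ℝ ∞ (fun x => lm l x p q)) (p q : Fin N) :
    ContDiff ℝ ∞ (X2 s A₂ lm p q) :=
  ContDiff.sum fun i _ => ContDiff.sum fun j _ => (hs i j).mul (ContDiff.sum fun r _ =>
    (hlm j p r).mul (hA i r q))

theorem sm_zet {s : MF n} (hs : SmM s) (htr : ∀ x, 0 < trs s x) {A₁ A₂ lm : Cn' n N}
    (hA₁ : ∀ l p q, ContDiff ℝ ∞ (fun x => A₁ l x p q))
    (hA₂ : ∀ l p q, ContDiff ℝ ∞ (fun x => A₂ l x p q))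
    (hlm : ∀ l p q, ContDiff ℝ ∞ (fun x => lm l x p q)) (p q : Fin N) :
    ContDiff ℝ ∞ (zet s A₁ A₂ lm p q) :=
  (((sm_X1 hs hA₁ hlm p q).add (sm_X2 hs hA₂ hlm p q)).neg).div (sm_trs hs) fun x => (htr x).ne'

/-- The entries of `Dvh`. -/
theorem Dvh_apply {s : MF n} (hs : SmM s) {x : V n}
    (hdv : ∀ j, ∑ i, pd i (fun y => s y i j) x = 0) (A₁ A₂ : Cn' n N) {lm : Cn' n N}
    (hlm : ∀ l p q, ContDiff ℝ ∞ (fun x => lm l x p q)) (p q : Fin N) :
    Dvh s A₁ A₂ lm x p q = ∑ i, ∑ j, s x i j * pd i (fun y => lm j y p q) x + X1 s A₁ lm p q x -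
      X2 s A₂ lm p q x := by
  unfold Dvh
  rw [Matrix.sum_apply]
  have hent : ∀ i y, (∑ j, s y i j • lm j y) p q = ∑ j, s y i j * lm j y p q := by
    intro i y
    rw [Matrix.sum_apply]
    rfl
  have h1 : ∀ i, Dh A₁ A₂ i (fun y => ∑ j, s y i j • lm j y) x p q =
      ∑ j, (pd i (fun y => s y i j) x * lm j x p q + s x i j * pd i (fun y => lm j y p q) x) +
      ∑ j, s x i j * ∑ r, A₁ i x p r * lm j x r q - ∑ j, s x i j * ∑ r, lm j x p r * A₂ i x r q := by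
    intro i
    unfold Dh
    rw [Matrix.sub_apply, Matrix.add_apply, Matrix.of_apply]
    congr 1
    · congr 1
      · simp only [hent]
        rw [pd_sum _ (fun j _ => dA ((hs i j).mul (hlm j p q)) x)]
        exact Finset.sum_congr rfl fun j _ => pd_mul (dA (hs i j) x) (dA (hlm j p q) x) i
      · rw [Matrix.mul_sum, Matrix.sum_apply]
        refine Finset.sum_congr rfl fun j _ => ?_
        rw [Matrix.mul_smul, Matrix.smul_apply, Matrix.mul_apply, smul_eq_mul]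
    · rw [Matrix.sum_mul, Matrix.sum_apply]
      refine Finset.sum_congr rfl fun j _ => ?_
      rw [Matrix.smul_mul, Matrix.smul_apply, Matrix.mul_apply, smul_eq_mul]
  simp only [h1, Finset.sum_add_distrib, Finset.sum_sub_distrib]
  have h2 : ∑ i, ∑ j, pd i (fun y => s y i j) x * lm j x p q = 0 := by
    rw [Finset.sum_comm]
    refine Finset.sum_eq_zero fun j _ => ?_
    rw [← Finset.sum_mul, hdv j, zero_mul]
  rw [h2, zero_add]
  rfl

/-- The function `k`. -/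
def kk (s : MF n) (A₁ A₂ lm : Cn' n N) (p q : Fin N) : VV n → ℝ :=
  kap (fun j x => lm j x p q) (zet s A₁ A₂ lm p q)

theorem Lx_kk {s : MF n} (hs : SmM s) (hsy : ∀ x, (s x).IsSymm) (htr : ∀ x, 0 < trs s x)
    {x : V n} (hdv : ∀ j, ∑ i, pd i (fun y => s y i j) x = 0) {A₁ A₂ lm : Cn' n N}
    (hA₁ : ∀ l p q, ContDiff ℝ ∞ (fun x => A₁ l x p q))
    (hA₂ : ∀ l p q, ContDiff ℝ ∞ (fun x => A₂ l x p q))
    (hlm : ∀ l p q, ContDiff ℝ ∞ (fun x => lm l x p q)) (Q : Mx n N) (p q : Fin N)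
    (h0 : Dvh s A₁ A₂ lm x = 0) :
    LxG s (co s A₁ Q) (fun p' => kk s A₁ A₂ lm p' q) p (x, x) = 0 := by
  have hS : ∀ i j, s x i j = s x j i := fun i j => by
    have := congrFun (congrFun (hsy x) j) i
    simpa [Matrix.transpose_apply] using this
  have hz := sm_zet hs htr hA₁ hA₂ hlm
  have hl : ∀ p q j, ContDiff ℝ ∞ (fun x => lm j x p q) := fun p q j => hlm j p q
  unfold LxG Lx kk
  simp only [dxx_kap (hl _ _) (hz _ _), dx_kap (hl _ _) (hz _ _), kap_diag, mul_zero, add_zero]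
  have h1 : ∑ i, ∑ j, s x i j * (1 / 2 * (pd j (fun x => lm i x p q) x +
      pd i (fun x => lm j x p q) x) + zet s A₁ A₂ lm p q x *
      (1 : Matrix (Fin n) (Fin n) ℝ) i j) =
      ∑ i, ∑ j, s x i j * pd i (fun y => lm j y p q) x + zet s A₁ A₂ lm p q x * trs s x := by
    have e1 : ∑ i, ∑ j, s x i j * pd j (fun x => lm i x p q) x =
        ∑ i, ∑ j, s x i j * pd i (fun y => lm j y p q) x := by
      rw [Finset.sum_comm]
      exact Finset.sum_congr rfl fun i _ => Finset.sum_congr rfl fun j _ => by rw [hS i j]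
    have e2 : ∀ i j, s x i j * (1 / 2 * (pd j (fun x => lm i x p q) x +
        pd i (fun x => lm j x p q) x) + zet s A₁ A₂ lm p q x *
        (1 : Matrix (Fin n) (Fin n) ℝ) i j) = 1 / 2 * (s x i j * pd j (fun x => lm i x p q) x) +
        1 / 2 * (s x i j * pd i (fun x => lm j x p q) x) + zet s A₁ A₂ lm p q x *
        (s x i j * (1 : Matrix (Fin n) (Fin n) ℝ) i j) := fun i j => by ring
    simp only [e2, Finset.sum_add_distrib, ← Finset.mul_sum]
    rw [e1]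
    simp only [Matrix.one_apply, mul_ite, mul_one, mul_zero, Finset.sum_ite_eq, Finset.mem_univ,
      if_true]
    unfold trs
    ring
  have h2 : ∑ p', ∑ l, (co s A₁ Q).b l x p p' * lm l x p' q = 2 * X1 s A₁ lm p q x := by
    simp only [co, Matrix.of_apply]
    unfold X1
    rw [Finset.mul_sum]
    have e1 : ∀ p' l, (∑ i, 2 * (s x l i * A₁ i x p p')) * lm l x p' q =
        ∑ i, 2 * (s x i l * (A₁ i x p p' * lm l x p' q)) := by
      intro p' l
      rw [Finset.sum_mul]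
      exact Finset.sum_congr rfl fun i _ => by rw [hS l i]; ring
    simp only [e1]
    rw [Finset.sum_comm]
    have e2 : ∀ l, ∑ p', ∑ i, 2 * (s x i l * (A₁ i x p p' * lm l x p' q)) =
        ∑ i, 2 * (s x i l * ∑ r, A₁ i x p r * lm l x r q) := by
      intro l
      rw [Finset.sum_comm]
      refine Finset.sum_congr rfl fun i _ => ?_
      rw [Finset.mul_sum, Finset.mul_sum]
    simp only [e2]
    rw [Finset.sum_comm]
    exact Finset.sum_congr rfl fun i _ => by rw [Finset.mul_sum]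
  have h3 := congrFun (congrFun h0 p) q
  rw [Dvh_apply hs hdv A₁ A₂ hlm] at h3
  rw [h1, h2]
  have h4 : zet s A₁ A₂ lm p q x * trs s x = -(X1 s A₁ lm p q x + X2 s A₂ lm p q x) := by
    unfold zet
    have := (htr x).ne'
    field_simp
  rw [h4]
  have h5 : ∑ i, ∑ j, s x i j * pd i (fun y => lm j y p q) x + X1 s A₁ lm p q x -
      X2 s A₂ lm p q x = 0 := h3
  linarith

theorem Ly_kk {s : MF n} (hs : SmM s) (hsy : ∀ x, (s x).IsSymm) (htr : ∀ x, 0 < trs s x)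
    {x : V n} (hdv : ∀ j, ∑ i, pd i (fun y => s y i j) x = 0) {A₁ A₂ lm : Cn' n N}
    (hA₁ : ∀ l p q, ContDiff ℝ ∞ (fun x => A₁ l x p q))
    (hA₂ : ∀ l p q, ContDiff ℝ ∞ (fun x => A₂ l x p q)) (hsk : ∀ l x, (A₂ l x)ᵀ = -A₂ l x)
    (hlm : ∀ l p q, ContDiff ℝ ∞ (fun x => lm l x p q)) (Q : Mx n N) (p q : Fin N)
    (h0 : Dvh s A₁ A₂ lm x = 0) :
    LyG s (co s A₂ Q) (fun q' => kk s A₁ A₂ lm p q') q (x, x) = 0 := by
  have hS : ∀ i j, s x i j = s x j i := fun i j => by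
    have := congrFun (congrFun (hsy x) j) i
    simpa [Matrix.transpose_apply] using this
  have hK : ∀ i a b, A₂ i x a b = -A₂ i x b a := fun i a b => by
    have := congrFun (congrFun (hsk i x) b) a
    simpa [Matrix.transpose_apply] using this
  have hz := sm_zet hs htr hA₁ hA₂ hlm
  have hl : ∀ p q j, ContDiff ℝ ∞ (fun x => lm j x p q) := fun p q j => hlm j p q
  unfold LyG Ly kk
  simp only [dyy_kap (hl _ _) (hz _ _), dy_kap (hl _ _) (hz _ _), kap_diag, mul_zero, add_zero]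
  have h1 : ∑ i, ∑ j, s x i j * (-(1 / 2 * (pd j (fun x => lm i x p q) x +
      pd i (fun x => lm j x p q) x)) + zet s A₁ A₂ lm p q x *
      (1 : Matrix (Fin n) (Fin n) ℝ) i j) =
      -∑ i, ∑ j, s x i j * pd i (fun y => lm j y p q) x + zet s A₁ A₂ lm p q x * trs s x := by
    have e1 : ∑ i, ∑ j, s x i j * pd j (fun x => lm i x p q) x =
        ∑ i, ∑ j, s x i j * pd i (fun y => lm j y p q) x := by
      rw [Finset.sum_comm]
      exact Finset.sum_congr rfl fun i _ => Finset.sum_congr rfl fun j _ => by rw [hS i j]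
    have e2 : ∀ i j, s x i j * (-(1 / 2 * (pd j (fun x => lm i x p q) x +
        pd i (fun x => lm j x p q) x)) + zet s A₁ A₂ lm p q x *
        (1 : Matrix (Fin n) (Fin n) ℝ) i j) = -1 / 2 * (s x i j * pd j (fun x => lm i x p q) x) +
        -1 / 2 * (s x i j * pd i (fun x => lm j x p q) x) + zet s A₁ A₂ lm p q x *
        (s x i j * (1 : Matrix (Fin n) (Fin n) ℝ) i j) := fun i j => by ring
    simp only [e2, Finset.sum_add_distrib, ← Finset.mul_sum]
    rw [e1]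
    simp only [Matrix.one_apply, mul_ite, mul_one, mul_zero, Finset.sum_ite_eq, Finset.mem_univ,
      if_true]
    unfold trs
    ring
  have h2 : ∑ q', ∑ l, (co s A₂ Q).b l x q q' * -lm l x p q' = 2 * X2 s A₂ lm p q x := by
    simp only [co, Matrix.of_apply]
    unfold X2
    rw [Finset.mul_sum]
    have e1 : ∀ q' l, (∑ i, 2 * (s x l i * A₂ i x q q')) * -lm l x p q' =
        ∑ i, 2 * (s x i l * (lm l x p q' * A₂ i x q' q)) := by
      intro q' l
      rw [Finset.sum_mul]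
      exact Finset.sum_congr rfl fun i _ => by rw [hS l i, hK i q q']; ring
    simp only [e1]
    rw [Finset.sum_comm]
    have e2 : ∀ l, ∑ q', ∑ i, 2 * (s x i l * (lm l x p q' * A₂ i x q' q)) =
        ∑ i, 2 * (s x i l * ∑ r, lm l x p r * A₂ i x r q) := by
      intro l
      rw [Finset.sum_comm]
      refine Finset.sum_congr rfl fun i _ => ?_
      rw [Finset.mul_sum, Finset.mul_sum]
    simp only [e2]
    rw [Finset.sum_comm]
    exact Finset.sum_congr rfl fun i _ => by rw [Finset.mul_sum]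
  have h3 := congrFun (congrFun h0 p) q
  rw [Dvh_apply hs hdv A₁ A₂ hlm] at h3
  rw [h1, h2]
  have h4 : zet s A₁ A₂ lm p q x * trs s x = -(X1 s A₁ lm p q x + X2 s A₂ lm p q x) := by
    unfold zet
    have := (htr x).ne'
    field_simp
  rw [h4]
  have h5 : ∑ i, ∑ j, s x i j * pd i (fun y => lm j y p q) x + X1 s A₁ lm p q x -
      X2 s A₂ lm p q x = 0 := h3
  linarith

/-- The pairing of `k` on the diagonal. -/
theorem dg_kk {s : MF n} (hs : SmM s) (hsy : ∀ x, (s x).IsSymm) (htr : ∀ x, 0 < trs s x)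
    {A₁ A₂ lm : Cn' n N}
    (hA₁ : ∀ l p q, ContDiff ℝ ∞ (fun x => A₁ l x p q)) (hsk₁ : ∀ l x, (A₁ l x)ᵀ = -A₁ l x)
    (hA₂ : ∀ l p q, ContDiff ℝ ∞ (fun x => A₂ l x p q)) (hsk₂ : ∀ l x, (A₂ l x)ᵀ = -A₂ l x)
    (hlm : ∀ l p q, ContDiff ℝ ∞ (fun x => lm l x p q)) (Q₁ Q₂ : Mx n N) (x : V n) :
    (pf s A₁ A₂ Q₁ Q₂).dg (kk s A₁ A₂ lm) x =
      -2 * ipc s (fun i y => A₂ i y - A₁ i y) lm x := by
  have hS : ∀ i j, s x i j = s x j i := fun i j => by
    have := congrFun (congrFun (hsy x) j) i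
    simpa [Matrix.transpose_apply] using this
  have hK₁ : ∀ i a b, A₁ i x a b = -A₁ i x b a := fun i a b => by
    have := congrFun (congrFun (hsk₁ i x) b) a
    simpa [Matrix.transpose_apply] using this
  have hK₂ : ∀ i a b, A₂ i x a b = -A₂ i x b a := fun i a b => by
    have := congrFun (congrFun (hsk₂ i x) b) a
    simpa [Matrix.transpose_apply] using this
  have hz := sm_zet hs htr hA₁ hA₂ hlm
  have hl : ∀ p q j, ContDiff ℝ ∞ (fun x => lm j x p q) := fun p q j => hlm j p q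
  rw [dg_pf]
  unfold kk
  simp only [dx_kap (hl _ _) (hz _ _), dy_kap (hl _ _) (hz _ _), kap_diag, mul_zero, add_zero]
  have h1 : ∀ p q i, (pf s A₁ A₂ Q₁ Q₂).b i x p q * -lm i x p q =
      (pf s A₁ A₂ Q₁ Q₂).a i x p q * lm i x p q := by
    intro p q i
    simp only [pf, Matrix.of_apply]
    rw [mul_neg, ← neg_mul, ← Finset.sum_neg_distrib]
    congr 1
    refine Finset.sum_congr rfl fun j _ => ?_
    rw [hS j i, hK₁ j q p, hK₂ j q p]
    ring
  simp only [h1]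
  unfold ipc
  have h2 : ∀ p q, ∑ i, (pf s A₁ A₂ Q₁ Q₂).a i x p q * lm i x p q =
      -∑ i, ∑ j, s x i j * ((A₂ i x p q - A₁ i x p q) * lm j x p q) := by
    intro p q
    simp only [pf, Matrix.of_apply]
    rw [Finset.sum_comm, ← Finset.sum_neg_distrib]
    refine Finset.sum_congr rfl fun i _ => ?_
    rw [Finset.sum_mul, ← Finset.sum_neg_distrib]
    exact Finset.sum_congr rfl fun j _ => by rw [hS j i]; ring
  simp only [h2]
  have h3 : ∑ i, ∑ j, s x i j * ∑ p, ∑ q, (A₂ i x - A₁ i x) p q * lm j x p q =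
      ∑ p, ∑ q, ∑ i, ∑ j, s x i j * ((A₂ i x p q - A₁ i x p q) * lm j x p q) := by
    simp only [Finset.mul_sum]
    rw [rot4]
    rfl
  rw [h3, Finset.mul_sum]
  refine Finset.sum_congr rfl fun p _ => ?_
  rw [Finset.mul_sum]
  exact Finset.sum_congr rfl fun q _ => by ring

/-- Row T2P. -/
theorem t2P (hL : RowLIM) (hO : RowORTG) : RowT2P := by
  intro n N hn
  obtain ⟨K, ε, hε, hε2, h⟩ := main hL hO n N hn
  refine ⟨K, ε, hε, fun M hM s A₁ A₂ Q₁ Q₂ hs hA₁ hA₂ hQ₁ hQ₂ hA hQ hId lm hlm hD => ?_⟩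
  have htr := fun x => trs_pos hn hε2 hs x
  have hl : ∀ p q j, ContDiff ℝ ∞ (fun x => lm j x p q) := fun p q j => hlm j p q
  have h0 := h M hM s A₁ A₂ Q₁ Q₂ hs hA₁ hA₂ hQ₁ hQ₂ hA hQ hId (kk s A₁ A₂ lm)
    (fun p q => sm_kap (hl p q) (sm_zet hs.sm htr hA₁.sm hA₂.sm hlm p q))
    (Or.inr fun x hx p q =>
      ⟨Lx_kk hs.sm hs.sy htr (hs.dv x hx) hA₁.sm hA₂.sm hlm Q₁ p q (hD x hx),
        Ly_kk hs.sm hs.sy htr (hs.dv x hx) hA₁.sm hA₂.sm hA₂.sk hlm Q₂ p q (hD x hx)⟩)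
  simp only [dg_kk hs.sm hs.sy htr hA₁.sm hA₁.sk hA₂.sm hA₂.sk hlm] at h0
  rw [integral_const_mul] at h0
  linarith

end Vale.Agent.P088.R2.H808.J

namespace Vale.Agent.P088.HY

/-- Row T2P. -/
theorem rowT2P (hL : RowLIM) (hO : RowORTG) : RowT2P := Vale.Agent.P088.R2.H808.J.t2P hL hO

end Vale.Agent.P088.HY
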